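import Vale.Agent.P083.Gap

/-! A self-similar affine group over truncated polynomial rings. -/

namespace Vale.Agent.P083

/-- Polynomials over `F` modulo `t ^ n`, as digit strings. -/
abbrev R (n : ℕ) : Type := Fin n → F

/-- Multiplication by `t`. -/
def sh {n : ℕ} : R n →ₗ[F] R n where
  toFun f j := if h : j.val = 0 then 0 else f ⟨j.val - 1, by omega⟩
  map_add' f g := by funext j; by_cases h : j.val = 0 <;> simp [h]
  map_smul' c f := by funext j; by_cases h : j.val = 0 <;> simp [h]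

/-- The monomial `t ^ j`. -/
def dig (j : ℕ) {n : ℕ} : R n := fun i => if i.val = j then 1 else 0

lemma sh_dig (j n : ℕ) : sh (dig j : R n) = dig (j + 1) := by
  funext i
  by_cases h : i.val = 0
  · simp [sh, dig, h]
  · simp only [sh, dig, LinearMap.coe_mk, AddHom.coe_mk, dif_neg h]
    congr 1
    apply propext
    omega

lemma dig_eq_zero {j n : ℕ} (h : n ≤ j) : (dig j : R n) = 0 := by
  funext i
  have := i.2
  simp only [dig, Pi.zero_apply]
  rw [if_neg (by omega)]

/-- Prepending a digit. -/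
def cns {n : ℕ} (x : F) (y : R n) : R (n + 1) := Fin.cons x y

lemma cns_add {n : ℕ} (x x' : F) (y y' : R n) : cns x y + cns x' y' = cns (x + x') (y + y') := by
  funext j; cases j using Fin.cases <;> simp [cns]

lemma cns_smul {n : ℕ} (c x : F) (y : R n) : c • cns x y = cns (c * x) (c • y) := by
  funext j; cases j using Fin.cases <;> simp [cns]

lemma sh_cns {n : ℕ} (x : F) (y : R n) : sh (cns x y) = cns 0 (x • dig 0 + sh y) := by
  funext j
  cases j using Fin.cases with
  | zero => simp [cns, sh]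
  | succ j =>
    rw [cns, cns, Fin.cons_succ]
    obtain ⟨j, hj⟩ := j
    cases j with
    | zero => simp [sh, dig]
    | succ j =>
      simp [sh, dig]
      rfl

lemma dig_zero_eq {n : ℕ} : (dig 0 : R (n + 1)) = cns 1 0 := by
  funext j; cases j using Fin.cases <;> simp [cns, dig]

lemma dig_succ_eq {n : ℕ} (k : ℕ) : (dig (k + 1) : R (n + 1)) = cns 0 (dig k) := by
  funext j; cases j using Fin.cases <;> simp [cns, dig]

/-- Level `n` of the tree. -/
@[ext] structure L (n : ℕ) : Type where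
  p : R n
  q : R n
  r : R n

instance (n : ℕ) : Finite (L n) :=
  Finite.of_injective (fun y : L n => (y.p, y.q, y.r)) (by
    intro g h hgh
    simp only [Prod.mk.injEq] at hgh
    exact L.ext hgh.1 hgh.2.1 hgh.2.2)

noncomputable instance (n : ℕ) : Fintype (L n) := Fintype.ofFinite _

/-- The alphabet. -/
abbrev Alph : Type := F × F × F

/-- Families of permutations of the levels. -/
abbrev Gr : Type := ∀ n, Equiv.Perm (L n)

instance (n : ℕ) : MulAction Gr (L n) where
  smul g y := g n y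
  one_smul _ := rfl
  mul_smul _ _ _ := rfl

lemma smul_def' (g : Gr) {n : ℕ} (y : L n) : g • y = g n y := rfl

lemma Gr.ext' {g h : Gr} (e : ∀ n (y : L n), g • y = h • y) : g = h :=
  funext fun n => Equiv.ext (e n)

/-- Prepending a letter. -/
def cons {n : ℕ} (x : Alph) (y : L n) : L (n + 1) :=
  ⟨cns x.1 y.p, cns x.2.1 y.q, cns x.2.2 y.r⟩

/-- Words of length `n + 1` are pairs of a letter and a word of length `n`. -/
def consEquiv (n : ℕ) : Alph × L n ≃ L (n + 1) where
  toFun p := cons p.1 p.2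
  invFun z := ((z.p 0, z.q 0, z.r 0), ⟨Fin.tail z.p, Fin.tail z.q, Fin.tail z.r⟩)
  left_inv p := by simp [cons, cns]
  right_inv z := by simp [cons, cns]

/-- A homomorphism from the Heisenberg group given by an action on each level. -/
def mkHom (f : Heis → ∀ n, L n → L n) (h1 : ∀ n y, f 1 n y = y)
    (hm : ∀ g h n y, f (g * h) n y = f g n (f h n y)) : Heis →* Gr where
  toFun g n :=
    { toFun := f g n
      invFun := f g⁻¹ n
      left_inv := fun y => by rw [← hm, inv_mul_cancel, h1]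
      right_inv := fun y => by rw [← hm, mul_inv_cancel, h1] }
  map_one' := funext fun n => Equiv.ext (h1 n)
  map_mul' g h := funext fun n => Equiv.ext (hm g h n)

lemma mkHom_smul (f h1 hm) (g : Heis) {n : ℕ} (y : L n) : mkHom f h1 hm g • y = f g n y := rfl

def f12 : Heis →* Gr := mkHom
  (fun g _ y => ⟨y.p + g.a • y.q + g.c • y.r, y.q + g.b • y.r, y.r⟩)
  (fun _ _ => by simp) (fun g h n y => by
    refine L.ext ?_ ?_ rfl <;> simp only [Heis.mul_a, Heis.mul_b, Heis.mul_c] <;>
      module)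

def f23 : Heis →* Gr := mkHom
  (fun g _ y => ⟨y.p, y.q + g.a • y.r + g.c • sh y.p, y.r + g.b • sh y.p⟩)
  (fun _ _ => by simp) (fun g h n y => by
    refine L.ext rfl ?_ ?_ <;> simp only [Heis.mul_a, Heis.mul_b, Heis.mul_c] <;>
      module)

def f31 : Heis →* Gr := mkHom
  (fun g _ y => ⟨y.p + g.b • y.q, y.q, y.r + g.a • sh y.p + g.c • sh y.q⟩)
  (fun _ _ => by simp) (fun g h n y => by
    refine L.ext ?_ rfl ?_ <;>
      simp only [Heis.mul_a, Heis.mul_b, Heis.mul_c, map_add, map_smul] <;> module)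

def f24 : Heis →* Gr := mkHom
  (fun g _ y => ⟨y.p, y.q + g.a • y.r + g.c • dig 0, y.r + g.b • dig 0⟩)
  (fun _ _ => by simp) (fun g h n y => by
    refine L.ext rfl ?_ ?_ <;> simp only [Heis.mul_a, Heis.mul_b, Heis.mul_c] <;>
      module)

def f14 : Heis →* Gr := mkHom
  (fun g _ y => ⟨y.p + g.a • y.q, y.q, y.r + g.b • dig 0⟩)
  (fun _ _ => by simp) (fun g h n y => by
    refine L.ext ?_ rfl ?_ <;> simp only [Heis.mul_a, Heis.mul_b] <;> module)

def f34 : Heis →* Gr := mkHom
  (fun g _ y => ⟨y.p, y.q, y.r + g.a • sh y.p + g.b • dig 0⟩)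
  (fun _ _ => by simp) (fun g h n y => by
    refine L.ext rfl rfl ?_; simp only [Heis.mul_a, Heis.mul_b]; module)

/-- The six Heisenberg images. -/
def hom6 : Fin 6 → (Heis →* Gr) := ![f12, f23, f31, f24, f14, f34]

/-- The finite set on which multiplicativity is needed. -/
def Dom : Set Gr := Set.range (fun p : Fin 6 × Heis => hom6 p.1 p.2)

/-- The four generating subgroups. -/
def gen : Fin 4 → F → Gr :=
  ![fun a => f12 (hX a), fun a => f23 (hX a), fun a => f31 (hX a), fun a => f24 (hY a)]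

lemma gen0 (a : F) {n : ℕ} (y : L n) : gen 0 a • y = ⟨y.p + a • y.q, y.q, y.r⟩ := by
  change f12 (hX a) • y = _
  simp [f12, mkHom_smul, hX]

lemma gen1 (a : F) {n : ℕ} (y : L n) : gen 1 a • y = ⟨y.p, y.q + a • y.r, y.r⟩ := by
  change f23 (hX a) • y = _
  simp [f23, mkHom_smul, hX]

lemma gen2 (a : F) {n : ℕ} (y : L n) : gen 2 a • y = ⟨y.p, y.q, y.r + a • sh y.p⟩ := by
  change f31 (hX a) • y = _
  simp [f31, mkHom_smul, hX]

lemma gen3 (a : F) {n : ℕ} (y : L n) : gen 3 a • y = ⟨y.p, y.q, y.r + a • dig 0⟩ := by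
  change f24 (hY a) • y = _
  simp [f24, mkHom_smul, hY]

lemma pair_of (i j : Fin 4) (k : Fin 6) (h1 : ∀ a, hom6 k (hX a) = gen i a)
    (h2 : ∀ a, hom6 k (hY a) = gen j a) :
    (∃ φ : Heis →* Gr, (∀ a, φ (hX a) = gen i a) ∧ (∀ b, φ (hY b) = gen j b) ∧ ∀ h, φ h ∈ Dom) ∧
    (∃ φ : Heis →* Gr, (∀ a, φ (hX a) = gen j a) ∧ (∀ b, φ (hY b) = gen i b) ∧ ∀ h, φ h ∈ Dom) :=
  ⟨⟨hom6 k, h1, h2, fun h => ⟨(k, h), rfl⟩⟩,
    ⟨(hom6 k).comp Heis.swap, fun a => by rw [MonoidHom.comp_apply, swap_hX, h2],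
      fun a => by rw [MonoidHom.comp_apply, swap_hY, h1], fun h => ⟨(k, Heis.swap h), rfl⟩⟩⟩

/-- The generating data. -/
def gens : Gens Gr Dom where
  x := gen
  pair i j hij := by
    have p01 := pair_of 0 1 0 (fun _ => rfl) (fun a => Gr.ext' fun n y => by
      rw [gen1]; change f12 (hY a) • y = _; simp [f12, mkHom_smul, hY])
    have p12 := pair_of 1 2 1 (fun _ => rfl) (fun a => Gr.ext' fun n y => by
      rw [gen2]; change f23 (hY a) • y = _; simp [f23, mkHom_smul, hY])
    have p20 := pair_of 2 0 2 (fun _ => rfl) (fun a => Gr.ext' fun n y => by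
      rw [gen0]; change f31 (hY a) • y = _; simp [f31, mkHom_smul, hY])
    have p13 := pair_of 1 3 3 (fun a => Gr.ext' fun n y => by
      rw [gen1]; change f24 (hX a) • y = _; simp [f24, mkHom_smul, hX]) (fun _ => rfl)
    have p03 := pair_of 0 3 4 (fun a => Gr.ext' fun n y => by
      rw [gen0]; change f14 (hX a) • y = _; simp [f14, mkHom_smul, hX])
      (fun a => Gr.ext' fun n y => by
      rw [gen3]; change f14 (hY a) • y = _; simp [f14, mkHom_smul, hY])
    have p23 := pair_of 2 3 5 (fun a => Gr.ext' fun n y => by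
      rw [gen2]; change f34 (hX a) • y = _; simp [f34, mkHom_smul, hX])
      (fun a => Gr.ext' fun n y => by
      rw [gen3]; change f34 (hY a) • y = _; simp [f34, mkHom_smul, hY])
    fin_cases i <;> fin_cases j
    all_goals first
      | exact absurd rfl hij
      | exact p01.1 | exact p01.2 | exact p12.1 | exact p12.2 | exact p20.1 | exact p20.2
      | exact p13.1 | exact p13.2 | exact p03.1 | exact p03.2 | exact p23.1 | exact p23.2

lemma gens_x : gens.x = gen := rfl

/-- Self-similarity. -/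
lemma self_sim (i : Fin 4) (a : F) (x : Alph) : ∃ (x' : Alph) (i₁ : Fin 4) (a₁ : F) (i₂ : Fin 4)
    (a₂ : F), ∀ n (y : L n), gen i a • cons x y = cons x' ((gen i₁ a₁ * gen i₂ a₂) • y) := by
  fin_cases i
  · refine ⟨(x.1 + a * x.2.1, x.2.1, x.2.2), 0, a, 0, 0, fun n y => ?_⟩
    change gen 0 a • _ = _
    simp [mul_smul, gen0, cons, cns_add, cns_smul]
  · refine ⟨(x.1, x.2.1 + a * x.2.2, x.2.2), 1, a, 0, 0, fun n y => ?_⟩
    change gen 1 a • _ = _
    simp [mul_smul, gen0, gen1, cons, cns_add, cns_smul]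
  · refine ⟨x, 3, a * x.1, 2, a, fun n y => ?_⟩
    change gen 2 a • _ = _
    simp only [mul_smul, gen2, gen3, cons, sh_cns, cns_add, cns_smul, mul_zero, add_zero]
    congr 2
    module
  · refine ⟨(x.1, x.2.1, x.2.2 + a), 0, 0, 0, 0, fun n y => ?_⟩
    change gen 3 a • _ = _
    simp [mul_smul, gen0, gen3, cons, dig_zero_eq, cns_add, cns_smul]

/-- Translations. -/
def tr (v : ∀ n, L n) : Gr := fun n =>
  { toFun := fun y => ⟨y.p + (v n).p, y.q + (v n).q, y.r + (v n).r⟩
    invFun := fun y => ⟨y.p - (v n).p, y.q - (v n).q, y.r - (v n).r⟩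
    left_inv := fun y => by simp
    right_inv := fun y => by simp }

lemma tr_smul (v : ∀ n, L n) {n : ℕ} (y : L n) :
    tr v • y = ⟨y.p + (v n).p, y.q + (v n).q, y.r + (v n).r⟩ := rfl

def tr1 (j : ℕ) (c : F) : Gr := tr (fun _ => ⟨c • dig j, 0, 0⟩)
def tr2 (j : ℕ) (c : F) : Gr := tr (fun _ => ⟨0, c • dig j, 0⟩)
def tr3 (j : ℕ) (c : F) : Gr := tr (fun _ => ⟨0, 0, c • dig j⟩)

lemma tr1_smul (j : ℕ) (c : F) {n : ℕ} (y : L n) :
    tr1 j c • y = ⟨y.p + c • dig j, y.q, y.r⟩ := by
  rw [tr1, tr_smul]; simp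

lemma tr2_smul (j : ℕ) (c : F) {n : ℕ} (y : L n) :
    tr2 j c • y = ⟨y.p, y.q + c • dig j, y.r⟩ := by
  rw [tr2, tr_smul]; simp

lemma tr3_smul (j : ℕ) (c : F) {n : ℕ} (y : L n) :
    tr3 j c • y = ⟨y.p, y.q, y.r + c • dig j⟩ := by
  rw [tr3, tr_smul]; simp

lemma mem_of_comm {G : Type*} [Group G] {P : Subgroup G} {x t s : G} (hx : x ∈ P) (ht : t ∈ P)
    (h : x * t = s * t * x) : s ∈ P := by
  have : s = x * t * x⁻¹ * t⁻¹ := by rw [h]; group
  rw [this]
  exact P.mul_mem (P.mul_mem (P.mul_mem hx ht) (P.inv_mem hx)) (P.inv_mem ht)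

lemma tr1_mem (P : Subgroup Gr) (hP : ∀ i a, gen i a ∈ P) (j : ℕ) (c : F) : tr1 j c ∈ P := by
  have step : ∀ j, tr3 j c ∈ P → tr1 j c ∈ P := by
    intro j h3
    have h2 : tr2 j c ∈ P := mem_of_comm (hP 1 1) h3 (Gr.ext' fun n y => by
      simp only [mul_smul, gen1, tr3_smul, tr2_smul, one_smul, add_assoc])
    exact mem_of_comm (hP 0 1) h2 (Gr.ext' fun n y => by
      simp only [mul_smul, gen0, tr1_smul, tr2_smul, one_smul, add_assoc])
  apply step
  induction j with
  | zero =>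
    have : tr3 0 c = gen 3 c := Gr.ext' fun n y => by rw [gen3, tr3_smul]
    rw [this]; exact hP _ _
  | succ j ih =>
    exact mem_of_comm (hP 2 1) (step j ih) (Gr.ext' fun n y => by
      simp only [mul_smul, gen2, tr1_smul, tr3_smul, one_smul, add_assoc, map_add, map_smul,
        sh_dig])

lemma tr1_triv {j n : ℕ} (h : n ≤ j) (c : F) (y : L n) : tr1 j c • y = y := by
  rw [tr1_smul, dig_eq_zero h]; simp

lemma tr1_cons (j : ℕ) (c : F) {n : ℕ} (x : Alph) (y : L n) :
    tr1 (j + 1) c • cons x y = cons x (tr1 j c • y) := by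
  simp [tr1_smul, cons, dig_succ_eq, cns_add, cns_smul]

lemma gen_tr1 (i : Fin 4) (a c : F) (n : ℕ) (y : L (n + 1)) :
    gen i a • tr1 n c • y = tr1 n c • gen i a • y := by
  fin_cases i
  · change gen 0 a • _ = _ • gen 0 a • _
    simp only [gen0, tr1_smul, add_right_comm]
  · change gen 1 a • _ = _ • gen 1 a • _
    simp only [gen1, tr1_smul]
  · change gen 2 a • _ = _ • gen 2 a • _
    simp only [gen2, tr1_smul, map_add, map_smul, sh_dig, dig_eq_zero (le_refl (n + 1)), smul_zero,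
      add_zero]
  · change gen 3 a • _ = _ • gen 3 a • _
    simp only [gen3, tr1_smul]

lemma tr1_add (j : ℕ) (c c' : F) {n : ℕ} (y : L n) :
    tr1 j c • tr1 j c' • y = tr1 j (c' + c) • y := by
  simp only [tr1_smul, add_smul, add_assoc]

lemma tr1_fix (c : F) : tr1 0 c • (⟨0, 0, 0⟩ : L 1) = ⟨0, 0, 0⟩ ↔ c = 0 := by
  rw [tr1_smul]
  constructor
  · intro h
    have := congrFun (congrArg L.p h) 0
    simpa [dig] using this
  · rintro rfl
    simp

end Vale.Agent.P083
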