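import Vale.Agent.P083.Defs

/-! Finite-dimensional approximation of operators generated by a Cuntz pair. -/

open scoped InnerProductSpace ComplexConjugate Matrix
open Filter

namespace Vale.Agent.P083

variable {H : Type*} [NormedAddCommGroup H] [InnerProductSpace ℂ H] [CompleteSpace H]

/-- Binary words of length at most `m`. -/
abbrev Wd (m : ℕ) := {l : List Bool // l.length ≤ m}

instance (m : ℕ) : Finite (Wd m) := (List.finite_length_le Bool m).to_subtype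

noncomputable instance (m : ℕ) : Fintype (Wd m) := Fintype.ofFinite _

/-- Splitting off the first letter. -/
def wdEquiv (m : ℕ) : Option (Bool × Wd m) ≃ Wd (m + 1) where
  toFun
    | none => ⟨[], Nat.zero_le _⟩
    | some (i, l) => ⟨i :: l.1, Nat.succ_le_succ l.2⟩
  invFun
    | ⟨[], _⟩ => none
    | ⟨i :: l, h⟩ => some (i, ⟨l, Nat.le_of_succ_le_succ h⟩)
  left_inv
    | none => rfl
    | some (_, _) => rfl
  right_inv
    | ⟨[], _⟩ => rfl
    | ⟨_ :: _, _⟩ => rfl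

lemma sum_wd_succ (m : ℕ) (f : List Bool → ℝ) :
    ∑ l : Wd (m + 1), f l.1 = f [] + ∑ i : Bool, ∑ l : Wd m, f (i :: l.1) := by
  rw [← (wdEquiv m).sum_comp, Fintype.sum_option, Fintype.sum_prod_type]
  rfl

lemma sum_wd_zero (f : List Bool → ℝ) : ∑ l : Wd 0, f l.1 = f [] := by
  rw [Finset.sum_eq_single (⟨[], le_rfl⟩ : Wd 0) _ (by simp)]
  intro l _ hl
  exact absurd (Subtype.ext (List.length_eq_zero_iff.1 (Nat.le_zero.1 l.2))) hl

/-- Products of adjoints along a word. -/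
noncomputable def bw (s : Bool → H →L[ℂ] H) : List Bool → H →L[ℂ] H
  | [] => 1
  | i :: l => bw s l * star (s i)

variable {s : Bool → H →L[ℂ] H}

lemma sum_adj (h2 : ∑ i, s i * star (s i) = 1) (ξ : H) :
    ∑ i, ‖star (s i) ξ‖ ^ 2 = ‖ξ‖ ^ 2 := by
  have h : ⟪ξ, (∑ i, s i * star (s i)) ξ⟫_ℂ = ⟪ξ, ξ⟫_ℂ := by rw [h2]; rfl
  rw [sum_apply, inner_sum] at h
  rw [← inner_self_eq_norm_sq (𝕜 := ℂ), ← h, map_sum]
  refine Finset.sum_congr rfl (fun i _ => ?_)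
  rw [← inner_self_eq_norm_sq (𝕜 := ℂ), ContinuousLinearMap.star_eq_adjoint,
    ContinuousLinearMap.adjoint_inner_left]
  rfl

lemma sum_bw (h2 : ∑ i, s i * star (s i) = 1) (m : ℕ) (ξ : H) :
    ∑ l : Wd m, ‖bw s l.1 ξ‖ ^ 2 = (m + 1) * ‖ξ‖ ^ 2 := by
  induction m generalizing ξ with
  | zero => rw [sum_wd_zero (fun l => ‖bw s l ξ‖ ^ 2)]; simp [bw]
  | succ m ih =>
    rw [sum_wd_succ m (fun l => ‖bw s l ξ‖ ^ 2)]
    simp only [bw, mul_apply_eq_comp, ih, one_apply_eq_self]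
    rw [← Finset.mul_sum, sum_adj h2]
    push_cast
    ring

lemma sum_bw_top (h2 : ∑ i, s i * star (s i) = 1) (m : ℕ) (ξ : H) :
    ∑ l : Wd m, (if l.1.length = m then ‖bw s l.1 ξ‖ ^ 2 else 0) = ‖ξ‖ ^ 2 := by
  induction m generalizing ξ with
  | zero => rw [sum_wd_zero (fun l => if l.length = 0 then ‖bw s l ξ‖ ^ 2 else 0)]; simp [bw]
  | succ m ih =>
    rw [sum_wd_succ m (fun l => if l.length = m + 1 then ‖bw s l ξ‖ ^ 2 else 0)]
    simp only [bw, mul_apply_eq_comp, List.length_cons, add_left_inj, ih]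
    rw [sum_adj h2]
    simp

/-- A scalar matrix acting on columns of vectors. -/
noncomputable def mat {I : Type*} [Fintype I] (γ : Matrix I I ℂ) :
    PiLp 2 (fun _ : I => H) →ₗ[ℂ] PiLp 2 (fun _ : I => H) where
  toFun ζ := WithLp.toLp 2 (fun k => ∑ j, γ j k • ζ j)
  map_add' ζ ζ' := by ext k; simp [Finset.sum_add_distrib]
  map_smul' c ζ := by ext k; simp [Finset.smul_sum, smul_smul, mul_comm]

omit [CompleteSpace H] in
lemma mat_apply {I : Type*} [Fintype I] (γ : Matrix I I ℂ) (ζ : PiLp 2 (fun _ : I => H)) (k : I) :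
    mat γ ζ k = ∑ j, γ j k • ζ j := rfl

omit [CompleteSpace H] in
lemma mat_add {I : Type*} [Fintype I] (γ γ' : Matrix I I ℂ) (ζ : PiLp 2 (fun _ : I => H)) :
    mat (γ + γ') ζ = mat γ ζ + mat γ' ζ := by
  ext k; simp [mat_apply, add_smul, Finset.sum_add_distrib]

omit [CompleteSpace H] in
lemma mat_mul {I : Type*} [Fintype I] (γ γ' : Matrix I I ℂ) (ζ : PiLp 2 (fun _ : I => H)) :
    mat (γ' * γ) ζ = mat γ (mat γ' ζ) := by
  ext k
  simp only [mat_apply, Matrix.mul_apply, Finset.sum_smul, Finset.smul_sum, smul_smul]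
  rw [Finset.sum_comm]
  simp only [mul_comm]

omit [CompleteSpace H] in
lemma mat_scalar {I : Type*} [Fintype I] [DecidableEq I] (c : ℂ) (ζ : PiLp 2 (fun _ : I => H)) :
    mat (c • (1 : Matrix I I ℂ)) ζ = c • ζ := by
  ext k; simp [mat_apply, Matrix.one_apply]

/-- The isometry onto columns indexed by words. -/
noncomputable def Jm (s : Bool → H →L[ℂ] H) (m : ℕ) : H →ₗ[ℂ] PiLp 2 (fun _ : Wd m => H) where
  toFun ξ := WithLp.toLp 2 (fun l => (((√(m + 1))⁻¹ : ℝ) : ℂ) • bw s l.1 ξ)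
  map_add' ξ η := by ext l; simp
  map_smul' c ξ := by ext l; simp [smul_smul, mul_comm]

lemma Jm_apply (m : ℕ) (ξ : H) (l : Wd m) :
    Jm s m ξ l = (((√(m + 1))⁻¹ : ℝ) : ℂ) • bw s l.1 ξ := rfl

omit [CompleteSpace H] in
lemma norm_w (m : ℕ) (η : H) :
    ‖(((√(m + 1))⁻¹ : ℝ) : ℂ) • η‖ ^ 2 = ((m : ℝ) + 1)⁻¹ * ‖η‖ ^ 2 := by
  rw [norm_smul, mul_pow, Complex.norm_real, Real.norm_eq_abs, sq_abs, inv_pow,
    Real.sq_sqrt (by positivity)]

lemma Jm_norm (h2 : ∑ i, s i * star (s i) = 1) (m : ℕ) (ξ : H) : ‖Jm s m ξ‖ = ‖ξ‖ := by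
  rw [← sq_eq_sq₀ (norm_nonneg _) (norm_nonneg _), PiLp.norm_sq_eq_of_L2]
  simp only [Jm_apply, norm_w]
  rw [← Finset.mul_sum, sum_bw h2]
  field_simp

/-- `x` is intertwined by `Jm` with the matrix `γ` up to `δ`, and `γ` is bounded by `C`. -/
def Apx (s : Bool → H →L[ℂ] H) (m : ℕ) (x : H →L[ℂ] H) (γ : Matrix (Wd m) (Wd m) ℂ)
    (C δ : ℝ) : Prop :=
  (∀ ζ : PiLp 2 (fun _ : Wd m => H), ‖mat γ ζ‖ ≤ C * ‖ζ‖) ∧
    ∀ ξ, ‖Jm s m (x ξ) - mat γ (Jm s m ξ)‖ ≤ δ * ‖ξ‖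

lemma Apx.mono {m x γ C δ C' δ'} (h : Apx s m x γ C δ) (hC : C ≤ C') (hδ : δ ≤ δ') :
    Apx s m x γ C' δ' :=
  ⟨fun ζ => (h.1 ζ).trans (mul_le_mul_of_nonneg_right hC (norm_nonneg _)),
    fun ξ => (h.2 ξ).trans (mul_le_mul_of_nonneg_right hδ (norm_nonneg _))⟩

lemma Apx.add {m x y γ γ' C δ C' δ'} (h : Apx s m x γ C δ) (h' : Apx s m y γ' C' δ') :
    Apx s m (x + y) (γ + γ') (C + C') (δ + δ') := by
  refine ⟨fun ζ => ?_, fun ξ => ?_⟩
  · rw [mat_add, add_mul]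
    exact (norm_add_le _ _).trans (add_le_add (h.1 ζ) (h'.1 ζ))
  · rw [mat_add, add_mul, add_apply, map_add, add_sub_add_comm]
    exact (norm_add_le _ _).trans (add_le_add (h.2 ξ) (h'.2 ξ))

lemma Apx.mul {m x y γ γ' C δ C' δ'} (h : Apx s m x γ C δ) (h' : Apx s m y γ' C' δ')
    (hC : 0 ≤ C) (hδ : 0 ≤ δ) :
    Apx s m (x * y) (γ' * γ) (C * C') (δ * ‖y‖ + C * δ') := by
  refine ⟨fun ζ => ?_, fun ξ => ?_⟩
  · rw [mat_mul, mul_assoc]
    exact (h.1 _).trans (mul_le_mul_of_nonneg_left (h'.1 ζ) hC)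
  · rw [mat_mul, mul_apply_eq_comp]
    have e : Jm s m (x (y ξ)) - mat γ (mat γ' (Jm s m ξ))
        = (Jm s m (x (y ξ)) - mat γ (Jm s m (y ξ)))
          + mat γ (Jm s m (y ξ) - mat γ' (Jm s m ξ)) := by
      rw [map_sub]; abel
    rw [e, add_mul, mul_assoc, mul_assoc]
    refine (norm_add_le _ _).trans (add_le_add ((h.2 _).trans ?_) ((h.1 _).trans ?_))
    · exact mul_le_mul_of_nonneg_left (y.le_opNorm ξ) hδ
    · exact mul_le_mul_of_nonneg_left (h'.2 ξ) hC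

lemma Apx.scalar (m : ℕ) (c : ℂ) : Apx s m (c • 1) (c • 1) ‖c‖ 0 := by
  refine ⟨fun ζ => ?_, fun ξ => ?_⟩
  · rw [mat_scalar, norm_smul]
  · rw [mat_scalar]
    simp

/-- The truncated creation matrix. -/
def cre (m : ℕ) (i : Bool) : Matrix (Wd m) (Wd m) ℂ :=
  fun j k => if k.1 = i :: j.1 then 1 else 0

omit [CompleteSpace H] in
lemma mat_cre_nil (m : ℕ) (i : Bool) (ζ : PiLp 2 (fun _ : Wd m => H)) (h : ([] : List Bool).length ≤ m) :
    mat (cre m i) ζ ⟨[], h⟩ = 0 := by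
  simp [mat_apply, cre]

omit [CompleteSpace H] in
lemma mat_cre_cons (m : ℕ) (i i' : Bool) (l : List Bool) (ζ : PiLp 2 (fun _ : Wd m => H))
    (h : (i' :: l).length ≤ m) :
    mat (cre m i) ζ ⟨i' :: l, h⟩ = if i' = i then ζ ⟨l, Nat.le_of_succ_le h⟩ else 0 := by
  rw [mat_apply, Finset.sum_eq_single (⟨l, Nat.le_of_succ_le h⟩ : Wd m) _ (by simp)]
  · simp [cre]
  · intro j _ hj
    have : l ≠ j.1 := fun h' => hj (Subtype.ext h'.symm)
    simp [cre, this]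

omit [CompleteSpace H] in
lemma mat_cre_adj (m : ℕ) (i : Bool) (ζ : PiLp 2 (fun _ : Wd m => H)) (k : Wd m) :
    mat (cre m i)ᴴ ζ k = if h : (i :: k.1).length ≤ m then ζ ⟨i :: k.1, h⟩ else 0 := by
  rw [mat_apply]
  split_ifs with h
  · rw [Finset.sum_eq_single (⟨i :: k.1, h⟩ : Wd m) _ (by simp)]
    · simp [cre]
    · intro j _ hj
      have : j.1 ≠ i :: k.1 := fun h' => hj (Subtype.ext h')
      simp [cre, this]
  · refine Finset.sum_eq_zero (fun j _ => ?_)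
    have : j.1 ≠ i :: k.1 := fun h' => h (h' ▸ j.2)
    simp [cre, this]

omit [CompleteSpace H] in
lemma mat_adj_inner {I : Type*} [Fintype I] (γ : Matrix I I ℂ) (ζ ζ' : PiLp 2 (fun _ : I => H)) :
    ⟪mat γ ζ, ζ'⟫_ℂ = ⟪ζ, mat γᴴ ζ'⟫_ℂ := by
  simp only [PiLp.inner_apply, mat_apply, sum_inner, inner_sum, inner_smul_left, inner_smul_right,
    Matrix.conjTranspose_apply]
  exact Finset.sum_comm

omit [CompleteSpace H] in
lemma cre_adj_bound (m : ℕ) (i : Bool) (ζ : PiLp 2 (fun _ : Wd m => H)) :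
    ‖mat (cre m i)ᴴ ζ‖ ≤ 1 * ‖ζ‖ := by
  classical
  rw [one_mul, ← sq_le_sq₀ (norm_nonneg _) (norm_nonneg _), PiLp.norm_sq_eq_of_L2,
    PiLp.norm_sq_eq_of_L2]
  let f : List Bool → ℝ := fun l => if h : l.length ≤ m then ‖ζ ⟨l, h⟩‖ ^ 2 else 0
  have hf : ∀ l, 0 ≤ f l := fun l => by simp only [f]; split_ifs <;> positivity
  have e1 : ∑ k, ‖mat (cre m i)ᴴ ζ k‖ ^ 2 = ∑ k : Wd m, f (i :: k.1) := by
    refine Finset.sum_congr rfl (fun k _ => ?_)
    rw [mat_cre_adj]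
    simp only [f]
    split_ifs <;> simp
  have e2 : ∑ k : Wd (m + 1), f k.1 = ∑ k, ‖ζ k‖ ^ 2 := by
    let ι : Wd m → Wd (m + 1) := fun k => ⟨k.1, Nat.le_succ_of_le k.2⟩
    have hι : Function.Injective ι := fun a b h =>
      Subtype.ext (congrArg (fun k : Wd (m + 1) => k.1) h)
    symm
    refine Fintype.sum_of_injective ι hι _ _ (fun k hk => ?_) (fun k => ?_)
    · have : ¬ k.1.length ≤ m := fun h => hk ⟨⟨k.1, h⟩, rfl⟩
      simp [f, this]
    · simp only [f, ι]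
      rw [dif_pos k.2]
  rw [e1, ← e2, sum_wd_succ m f]
  have := Finset.single_le_sum (f := fun i => ∑ k : Wd m, f (i :: k.1))
    (fun _ _ => Finset.sum_nonneg (fun _ _ => hf _)) (Finset.mem_univ i)
  linarith [hf []]

omit [CompleteSpace H] in
lemma cre_bound (m : ℕ) (i : Bool) (ζ : PiLp 2 (fun _ : Wd m => H)) :
    ‖mat (cre m i) ζ‖ ≤ 1 * ‖ζ‖ := by
  have h1 : ‖mat (cre m i) ζ‖ ^ 2 ≤ ‖ζ‖ * ‖mat (cre m i) ζ‖ := by
    rw [← inner_self_eq_norm_sq (𝕜 := ℂ), mat_adj_inner]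
    refine (re_inner_le_norm _ _).trans (mul_le_mul_of_nonneg_left ?_ (norm_nonneg _))
    simpa using cre_adj_bound m i _
  nlinarith [norm_nonneg ζ, norm_nonneg (mat (cre m i) ζ)]

lemma apx_gen (h1 : ∀ i j, star (s i) * s j = if i = j then 1 else 0) (m : ℕ) (i : Bool) :
    Apx s m (s i) (cre m i) 1 (√(m + 1))⁻¹ := by
  refine ⟨cre_bound m i, fun ξ => ?_⟩
  rw [← sq_le_sq₀ (norm_nonneg _) (by positivity), PiLp.norm_sq_eq_of_L2,
    Finset.sum_eq_single (⟨[], Nat.zero_le _⟩ : Wd m) _ (by simp)]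
  · rw [PiLp.sub_apply, mat_cre_nil, sub_zero, Jm_apply, norm_w, mul_pow, inv_pow,
      Real.sq_sqrt (by positivity)]
    refine mul_le_mul_of_nonneg_left (le_of_eq ?_) (by positivity)
    have h := h1 i i
    rw [if_pos rfl] at h
    rw [← inner_self_eq_norm_sq (𝕜 := ℂ), ← inner_self_eq_norm_sq (𝕜 := ℂ)]
    congr 1
    change ⟪s i ξ, s i ξ⟫_ℂ = _
    rw [← ContinuousLinearMap.adjoint_inner_right, ← ContinuousLinearMap.star_eq_adjoint,
      ← mul_apply_eq_comp, h]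
    rfl
  · rintro ⟨l, hl⟩ _ hne
    cases l with
    | nil => exact absurd rfl hne
    | cons i' l =>
      rw [PiLp.sub_apply, mat_cre_cons, Jm_apply, Jm_apply]
      simp only [bw]
      rw [← mul_apply_eq_comp, mul_assoc, h1]
      split_ifs <;> simp

lemma apx_gen_adj (h2 : ∑ i, s i * star (s i) = 1) (m : ℕ) (i : Bool) :
    Apx s m (star (s i)) (cre m i)ᴴ 1 (√(m + 1))⁻¹ := by
  refine ⟨cre_adj_bound m i, fun ξ => ?_⟩
  rw [← sq_le_sq₀ (norm_nonneg _) (by positivity), PiLp.norm_sq_eq_of_L2]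
  have e : ∀ k : Wd m, ‖(Jm s m (star (s i) ξ) - mat (cre m i)ᴴ (Jm s m ξ)) k‖ ^ 2
      = ((m : ℝ) + 1)⁻¹ * (if k.1.length = m then ‖bw s k.1 (star (s i) ξ)‖ ^ 2 else 0) := by
    intro k
    rw [PiLp.sub_apply, mat_cre_adj]
    have hk := k.2
    by_cases h : k.1.length = m
    · rw [dif_neg (by simp [h]), if_pos h, sub_zero, Jm_apply, norm_w]
    · rw [dif_pos (by simp; omega), if_neg h, Jm_apply, Jm_apply]
      simp [bw]
  simp only [e]
  rw [← Finset.mul_sum, sum_bw_top h2, mul_pow, inv_pow, Real.sq_sqrt (by positivity)]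
  refine mul_le_mul_of_nonneg_left ?_ (by positivity)
  rw [← sum_adj h2 ξ]
  exact Finset.single_le_sum (f := fun i => ‖star (s i) ξ‖ ^ 2) (fun _ _ => by positivity)
    (Finset.mem_univ i)

/-- Operators asymptotically intertwined with bounded matrices, together with their adjoints. -/
def Good (s : Bool → H →L[ℂ] H) (x : H →L[ℂ] H) : Prop :=
  ∃ C : ℝ, 0 ≤ C ∧ ∀ δ : ℝ, 0 < δ → ∀ᶠ m in atTop,
    ∃ γ, Apx s m x γ C δ ∧ Apx s m (star x) γᴴ C δ

lemma good_gen (h1 : ∀ i j, star (s i) * s j = if i = j then 1 else 0)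
    (h2 : ∑ i, s i * star (s i) = 1) (i : Bool) : Good s (s i) := by
  refine ⟨1, zero_le_one, fun δ hδ => ?_⟩
  have ht : Tendsto (fun m : ℕ => (√((m : ℝ) + 1))⁻¹) atTop (nhds 0) :=
    tendsto_inv_atTop_zero.comp (Real.tendsto_sqrt_atTop.comp
      (tendsto_atTop_add_const_right _ 1 tendsto_natCast_atTop_atTop))
  filter_upwards [ht.eventually (ge_mem_nhds hδ)] with m hm
  exact ⟨cre m i, (apx_gen h1 m i).mono le_rfl hm, (apx_gen_adj h2 m i).mono le_rfl hm⟩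

lemma good_scalar (c : ℂ) : Good s (c • 1) := by
  refine ⟨‖c‖, norm_nonneg _, fun δ hδ => Eventually.of_forall (fun m => ⟨c • 1,
    (Apx.scalar m c).mono le_rfl hδ.le, ?_⟩)⟩
  have := (Apx.scalar (s := s) m (star c)).mono (norm_star c).le hδ.le
  simpa using this

lemma Good.star {x} (h : Good s x) : Good s (star x) := by
  obtain ⟨C, hC, h⟩ := h
  refine ⟨C, hC, fun δ hδ => ?_⟩
  filter_upwards [h δ hδ] with m ⟨γ, h1, h2⟩
  exact ⟨γᴴ, h2, by simpa using h1⟩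

lemma Good.add {x y} (h : Good s x) (h' : Good s y) : Good s (x + y) := by
  obtain ⟨C, hC, h⟩ := h
  obtain ⟨C', hC', h'⟩ := h'
  refine ⟨C + C', by positivity, fun δ hδ => ?_⟩
  filter_upwards [h (δ / 2) (by positivity), h' (δ / 2) (by positivity)]
    with m ⟨γ, h1, h2⟩ ⟨γ', h1', h2'⟩
  refine ⟨γ + γ', (h1.add h1').mono le_rfl (by linarith), ?_⟩
  rw [star_add, Matrix.conjTranspose_add]
  exact (h2.add h2').mono le_rfl (by linarith)

lemma Good.mul {x y} (h : Good s x) (h' : Good s y) : Good s (x * y) := by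
  obtain ⟨C, hC, h⟩ := h
  obtain ⟨C', hC', h'⟩ := h'
  refine ⟨C * C', by positivity, fun δ hδ => ?_⟩
  set K := ‖x‖ + ‖y‖ + C + C' + 1 with hK
  have hK0 : 0 < K := by positivity
  have hδ' : 0 < δ / K := by positivity
  have e : δ / K * K = δ := by field_simp
  filter_upwards [h (δ / K) hδ', h' (δ / K) hδ'] with m ⟨γ, h1, h2⟩ ⟨γ', h1', h2'⟩
  refine ⟨γ' * γ, (h1.mul h1' hC hδ'.le).mono le_rfl ?_, ?_⟩
  · nlinarith [norm_nonneg x, norm_nonneg y]
  rw [star_mul, Matrix.conjTranspose_mul]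
  refine (h2'.mul h2 hC' hδ'.le).mono (mul_comm _ _).le ?_
  rw [norm_star]
  nlinarith [norm_nonneg x, norm_nonneg y]

theorem cuntz_approx {B : Type*} [CStarAlgebra B] {s₁ s₂ : B} (hs : IsCuntzPair s₁ s₂)
    (ρ : B →⋆ₐ[ℂ] (H →L[ℂ] H)) {σ : Type*} [Finite σ] (u : σ → B) {δ : ℝ} (hδ : 0 < δ) :
    ∃ (m : ℕ) (J : H →ₗ[ℂ] PiLp 2 (fun _ : Wd m => H)), (∀ ξ, ‖J ξ‖ = ‖ξ‖) ∧
      ∀ t, ∃ γ : Matrix (Wd m) (Wd m) ℂ,
        (∀ ξ, ‖J (ρ (u t) ξ) - mat γ (J ξ)‖ ≤ δ * ‖ξ‖) ∧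
        (∀ ξ, ‖J (ρ (star (u t)) ξ) - mat γᴴ (J ξ)‖ ≤ δ * ‖ξ‖) := by
  obtain ⟨a1, a2, a3, a4⟩ := hs
  have a5 : star s₂ * s₁ = 0 := by
    have h : star s₁ * (s₁ * star s₁ + s₂ * star s₂) * s₁ = 1 := by rw [a3, mul_one, a1]
    have h' : star (star s₂ * s₁) * (star s₂ * s₁) = 0 := by
      rw [mul_add, add_mul, ← mul_assoc, a1, one_mul, a1] at h
      rw [star_mul, star_star]
      have := add_left_cancel (h.trans (add_zero 1).symm)
      simpa only [mul_assoc] using this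
    exact (CStarRing.star_mul_self_eq_zero_iff _).1 h'
  have a6 : star s₁ * s₂ = 0 := by simpa using congrArg star a5
  let s : Bool → H →L[ℂ] H := fun i => ρ (bif i then s₁ else s₂)
  have h1 : ∀ i j, star (s i) * s j = if i = j then 1 else 0 := by
    intro i j
    simp only [s, ← map_star, ← map_mul]
    cases i <;> cases j <;> simp [a1, a2, a5, a6]
  have h2 : ∑ i, s i * star (s i) = 1 := by
    simp only [s, ← map_star, ← map_mul, Fintype.sum_bool, cond_true, cond_false, ← map_add, a3,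
      map_one]
  have hgood : ∀ x ∈ StarAlgebra.adjoin ℂ ({s₁, s₂} : Set B), Good s (ρ x) := by
    intro x hx
    induction hx using StarAlgebra.adjoin_induction with
    | mem x hx =>
      rcases hx with rfl | rfl
      · exact good_gen h1 h2 true
      · exact good_gen h1 h2 false
    | algebraMap r =>
      rw [AlgHomClass.commutes, Algebra.algebraMap_eq_smul_one]
      exact good_scalar r
    | add x y _ _ hx hy => rw [map_add]; exact hx.add hy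
    | mul x y _ _ hx hy => rw [map_mul]; exact hx.mul hy
    | star x _ hx => rw [map_star]; exact hx.star
  have hdense : ∀ t, ∃ x ∈ StarAlgebra.adjoin ℂ ({s₁, s₂} : Set B), ‖u t - x‖ ≤ δ / 2 := by
    intro t
    have : u t ∈ closure ((StarAlgebra.adjoin ℂ ({s₁, s₂} : Set B) : StarSubalgebra ℂ B) : Set B) := by
      have h : u t ∈ (StarAlgebra.adjoin ℂ ({s₁, s₂} : Set B)).topologicalClosure := by
        rw [a4]; trivial
      exact h
    obtain ⟨x, hx, hd⟩ := Metric.mem_closure_iff.1 this (δ / 2) (by positivity)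
    exact ⟨x, hx, by rw [← dist_eq_norm]; exact hd.le⟩
  choose x hx hd using hdense
  choose C _ hC using fun t => hgood (x t) (hx t)
  obtain ⟨m, hm⟩ := (eventually_all.2 (fun t => hC t (δ / 2) (by positivity))).exists
  have key : ∀ (y z : B) (γ : Matrix (Wd m) (Wd m) ℂ) (C : ℝ), ‖y - z‖ ≤ δ / 2 →
      Apx s m (ρ z) γ C (δ / 2) → ∀ ξ, ‖Jm s m (ρ y ξ) - mat γ (Jm s m ξ)‖ ≤ δ * ‖ξ‖ := by
    intro y z γ C hyz h ξ
    have e : Jm s m (ρ y ξ) - mat γ (Jm s m ξ)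
        = Jm s m (ρ (y - z) ξ) + (Jm s m (ρ z ξ) - mat γ (Jm s m ξ)) := by
      rw [map_sub ρ, sub_apply, map_sub]; abel
    rw [e]
    refine (norm_add_le _ _).trans ?_
    rw [Jm_norm h2]
    have h3 : ‖ρ (y - z) ξ‖ ≤ δ / 2 * ‖ξ‖ := (ContinuousLinearMap.le_opNorm _ _).trans
      (mul_le_mul_of_nonneg_right ((NonUnitalStarAlgHom.norm_apply_le ρ _).trans hyz)
        (norm_nonneg _))
    linarith [h.2 ξ]
  refine ⟨m, Jm s m, Jm_norm h2 m, fun t => ?_⟩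
  obtain ⟨γ, g1, g2⟩ := hm t
  refine ⟨γ, key _ _ _ _ (hd t) g1, key _ (star (x t)) _ (C t) ?_ (by rwa [map_star])⟩
  rw [← star_sub, norm_star]
  exact hd t

end Vale.Agent.P083
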