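import Mathlib

/-! Definitions for P083: Cuntz generators and the norm ultrapower. -/

open Filter Topology
open scoped ENNReal

namespace Vale.Agent.P083

universe u

/-- `B` is generated, as a unital C*-algebra, by two isometries `s₁, s₂`
with `s₁ s₁* + s₂ s₂* = 1`. -/
def IsCuntzPair {B : Type u} [CStarAlgebra B] (s₁ s₂ : B) : Prop :=
  star s₁ * s₁ = 1 ∧ star s₂ * s₂ = 1 ∧ s₁ * star s₁ + s₂ * star s₂ = 1 ∧
    (StarAlgebra.adjoin ℂ ({s₁, s₂} : Set B)).topologicalClosure = ⊤

/-- Norm-bounded sequences in `B`. -/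
abbrev BddSeq (B : Type u) [CStarAlgebra B] : Type u := lp (fun _ : ℕ => B) ∞

/-- The ideal of bounded sequences whose norms tend to `0` along `ω`. -/
def nullIdeal (B : Type u) [CStarAlgebra B] [Nontrivial B] (ω : Ultrafilter ℕ) :
    Ideal (BddSeq B) where
  carrier := {b | Tendsto (fun n => ‖b n‖) (ω : Filter ℕ) (𝓝 0)}
  zero_mem' := by
    change Tendsto (fun n => ‖(0 : BddSeq B) n‖) (ω : Filter ℕ) (𝓝 0)
    simp
  add_mem' := by
    intro a b ha hb
    have h := Tendsto.add ha hb
    rw [add_zero] at h
    exact squeeze_zero (fun _ => norm_nonneg _) (fun n => norm_add_le (a n) (b n)) h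
  smul_mem' := by
    intro c b hb
    have h := Tendsto.const_mul ‖c‖ hb
    rw [mul_zero] at h
    refine squeeze_zero (fun _ => norm_nonneg _) (fun n => ?_) h
    exact (norm_mul_le (c n) (b n)).trans
      (mul_le_mul_of_nonneg_right (lp.norm_apply_le_norm ENNReal.top_ne_zero c n) (norm_nonneg _))

instance nullIdeal_isTwoSided (B : Type u) [CStarAlgebra B] [Nontrivial B] (ω : Ultrafilter ℕ) :
    (nullIdeal B ω).IsTwoSided where
  mul_mem_of_left := by
    intro b c hb
    have h := Tendsto.mul_const ‖c‖ hb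
    rw [zero_mul] at h
    refine squeeze_zero (fun _ => norm_nonneg _) (fun n => ?_) h
    exact (norm_mul_le (b n) (c n)).trans
      (mul_le_mul_of_nonneg_left (lp.norm_apply_le_norm ENNReal.top_ne_zero c n) (norm_nonneg _))

/-- The norm ultrapower `B^ω = ℓ^∞(ℕ, B) / I_ω(B)`. -/
abbrev Ultrapower (B : Type u) [CStarAlgebra B] [Nontrivial B] (ω : Ultrafilter ℕ) : Type u :=
  BddSeq B ⧸ nullIdeal B ω

/-- The involution of the ultrapower, induced by the pointwise involution of sequences. -/
noncomputable instance ultrapowerStar (B : Type u) [CStarAlgebra B] [Nontrivial B]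
    (ω : Ultrafilter ℕ) : Star (Ultrapower B ω) where
  star := Quotient.map' (s₁ := (nullIdeal B ω).quotientRel) (s₂ := (nullIdeal B ω).quotientRel)
    star (by
      intro a b hab
      rw [Submodule.quotientRel_def] at hab ⊢
      change Tendsto (fun n => ‖(star a - star b) n‖) (ω : Filter ℕ) (𝓝 0)
      have h : (fun n => ‖(star a - star b) n‖) = fun n => ‖(a - b) n‖ := by
        funext n
        change ‖star (a n) - star (b n)‖ = ‖a n - b n‖
        rw [← star_sub, norm_star]
      rw [h]
      exact hab)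

end Vale.Agent.P083
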