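import Vale.Agent.P083.Heis

/-! A robust spectral gap for approximate representations, and error correction. -/

open scoped InnerProductSpace
open RCLike

namespace Vale.Agent.P083

/-- An approximate unitary representation, multiplicative up to `ε` on `D`. -/
structure ARep (G E : Type*) [Group G] [NormedAddCommGroup E] [InnerProductSpace ℂ E]
    (D : Set G) (ε : ℝ) where
  U : G → E →ₗ[ℂ] E
  one : ∀ ξ, U 1 ξ = ξ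
  sym : ∀ g ξ η, ⟪U g ξ, η⟫_ℂ = ⟪ξ, U g⁻¹ η⟫_ℂ
  mul : ∀ g ∈ D, ∀ h ∈ D, ∀ ξ, ‖U g (U h ξ) - U (g * h) ξ‖ ≤ ε * ‖ξ‖

/-- Four one-parameter subgroups, each pair of which is an image of the Heisenberg pair. -/
structure Gens (G : Type*) [Group G] (D : Set G) where
  x : Fin 4 → F → G
  pair : ∀ i j, i ≠ j → ∃ φ : Heis →* G,
    (∀ a, φ (hX a) = x i a) ∧ (∀ b, φ (hY b) = x j b) ∧ ∀ h, φ h ∈ D

variable {G E : Type*} [Group G] [NormedAddCommGroup E] [InnerProductSpace ℂ E]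
  {D : Set G} {ε : ℝ}

lemma Gens.x_add (S : Gens G D) (i : Fin 4) (a b : F) : S.x i (a + b) = S.x i a * S.x i b := by
  obtain ⟨φ, h1, -, -⟩ := S.pair i (i + 1) (by revert i; decide)
  rw [← h1, ← h1, ← h1, hX_add, map_mul]

lemma Gens.x_mem (S : Gens G D) (i : Fin 4) (a : F) : S.x i a ∈ D := by
  obtain ⟨φ, h1, -, h3⟩ := S.pair i (i + 1) (by revert i; decide)
  rw [← h1]; exact h3 _

lemma Gens.x_neg (S : Gens G D) (i : Fin 4) (a : F) : S.x i (-a) = (S.x i a)⁻¹ :=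
  par_neg (S.x_add i) a

lemma Gens.x_inv_mem (S : Gens G D) (i : Fin 4) (a : F) : (S.x i a)⁻¹ ∈ D := by
  rw [← S.x_neg]; exact S.x_mem _ _

lemma ARep.gram (ρ : ARep G E D ε) {g h : G} (hg : g⁻¹ ∈ D) (hh : h ∈ D) (ξ : E) :
    |re ⟪ρ.U g ξ, ρ.U h ξ⟫_ℂ - re ⟪ξ, ρ.U (g⁻¹ * h) ξ⟫_ℂ| ≤ ε * ‖ξ‖ ^ 2 := by
  rw [ρ.sym, ← map_sub, ← inner_sub_right]
  calc _ ≤ ‖⟪ξ, ρ.U g⁻¹ (ρ.U h ξ) - ρ.U (g⁻¹ * h) ξ⟫_ℂ‖ := abs_re_le_norm _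
    _ ≤ ‖ξ‖ * (ε * ‖ξ‖) := (norm_inner_le_norm _ _).trans
        (mul_le_mul_of_nonneg_left (ρ.mul _ hg _ hh ξ) (norm_nonneg _))
    _ = _ := by ring

lemma ARep.norm_sq (ρ : ARep G E D ε) {g : G} (hg : g⁻¹ ∈ D) (hh : g ∈ D) (ξ : E) :
    |‖ρ.U g ξ‖ ^ 2 - ‖ξ‖ ^ 2| ≤ ε * ‖ξ‖ ^ 2 := by
  have := ρ.gram hg hh ξ
  rwa [inv_mul_cancel, ρ.one, re_inner_self_eq, re_inner_self_eq] at this

lemma ARep.norm_le (ρ : ARep G E D ε) (hε : ε ≤ 1) {g : G} (hg : g⁻¹ ∈ D) (hh : g ∈ D) (ξ : E) :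
    ‖ρ.U g ξ‖ ≤ 2 * ‖ξ‖ := by
  have h := (abs_le.1 (ρ.norm_sq hg hh ξ)).2
  apply abs_le_of_sq_le_sq' _ (by positivity) |>.2
  nlinarith [sq_nonneg ‖ξ‖]

/-- Right translation on square-summable functions on the Heisenberg group. -/
noncomputable def rightReg (E : Type*) [NormedAddCommGroup E] [InnerProductSpace ℂ E] :
    Heis →* Module.End ℂ (PiLp 2 (fun _ : Heis => E)) where
  toFun g :=
    { toFun := fun ζ => WithLp.toLp 2 (fun h => ζ (h * g))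
      map_add' := fun _ _ => rfl
      map_smul' := fun _ _ => rfl }
  map_one' := by ext ζ h; simp
  map_mul' g g' := by
    ext ζ h
    change ζ (h * (g * g')) = ζ (h * g * g')
    rw [mul_assoc]

lemma rightReg_apply (g : Heis) (ζ : PiLp 2 (fun _ : Heis => E)) (h : Heis) :
    rightReg E g ζ h = ζ (h * g) := rfl

theorem heis_robust (ρ : ARep G E D ε) (φ : Heis →* G) (hφ : ∀ h, φ h ∈ D) (ξ : E) :
    -(9 * ε * ‖ξ‖ ^ 2) ≤ (2 + 2 * (1 / 6 : ℝ)) * ‖ξ‖ ^ 2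
      - (2 + (1 / 6 : ℝ)) * (37⁻¹ * ∑ a, re ⟪ξ, ρ.U (φ (hX a)) ξ⟫_ℂ
          + 37⁻¹ * ∑ b, re ⟪ξ, ρ.U (φ (hY b)) ξ⟫_ℂ)
      + 2 * (37⁻¹ * 37⁻¹ * ∑ a, ∑ b, re ⟪ξ, ρ.U (φ (hX a * hY b)) ξ⟫_ℂ) := by
  classical
  let _ : Fintype Heis := Fintype.ofFinite Heis
  set ζ : PiLp 2 (fun _ : Heis => E) := WithLp.toLp 2 (fun h => ρ.U (φ h) ξ) with hζ
  have hs : ∀ g (α β : PiLp 2 (fun _ : Heis => E)),
      ⟪rightReg E g α, β⟫_ℂ = ⟪α, rightReg E g⁻¹ β⟫_ℂ := by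
    intro g α β
    simp only [PiLp.inner_apply, rightReg_apply]
    exact Fintype.sum_equiv (Equiv.mulRight g) _ _ (fun h => by simp)
  have main := heis_exact (rightReg E) hs ζ
  set N : ℝ := ((Fintype.card Heis : ℕ) : ℝ) with hN
  have hN0 : 0 < N := by rw [hN]; exact_mod_cast Fintype.card_pos
  set n := ε * ‖ξ‖ ^ 2 with hn
  have key : ∀ g, |re ⟪ζ, rightReg E g ζ⟫_ℂ - N * re ⟪ξ, ρ.U (φ g) ξ⟫_ℂ| ≤ N * n := by
    intro g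
    have h1 : re ⟪ζ, rightReg E g ζ⟫_ℂ - N * re ⟪ξ, ρ.U (φ g) ξ⟫_ℂ
        = ∑ h : Heis, (re ⟪ρ.U (φ h) ξ, ρ.U (φ (h * g)) ξ⟫_ℂ - re ⟪ξ, ρ.U (φ g) ξ⟫_ℂ) := by
      rw [Finset.sum_sub_distrib, PiLp.inner_apply, map_sum, Finset.sum_const, Finset.card_univ,
        nsmul_eq_mul]
      rfl
    rw [h1]
    refine (Finset.abs_sum_le_sum_abs _ _).trans ?_
    have : ∀ h : Heis, |re ⟪ρ.U (φ h) ξ, ρ.U (φ (h * g)) ξ⟫_ℂ - re ⟪ξ, ρ.U (φ g) ξ⟫_ℂ| ≤ n := by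
      intro h
      have := ρ.gram (g := φ h) (h := φ (h * g)) (by rw [← map_inv]; exact hφ _) (hφ _) ξ
      rwa [map_mul, inv_mul_cancel_left, ← map_mul] at this
    refine (Finset.sum_le_sum (fun h _ => this h)).trans ?_
    rw [Finset.sum_const, Finset.card_univ, nsmul_eq_mul]
  have k1 := (abs_le.1 (key 1)).2
  rw [map_one φ, ρ.one, re_inner_self_eq] at k1
  have k2 : ∀ x : F → Heis, N * ∑ a, re ⟪ξ, ρ.U (φ (x a)) ξ⟫_ℂ - 37 * (N * n)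
      ≤ ∑ a, re ⟪ζ, rightReg E (x a) ζ⟫_ℂ := by
    intro x
    have : ∑ a : F, (N * re ⟪ξ, ρ.U (φ (x a)) ξ⟫_ℂ - N * n)
        ≤ ∑ a, re ⟪ζ, rightReg E (x a) ζ⟫_ℂ :=
      Finset.sum_le_sum (fun a _ => by linarith [(abs_le.1 (key (x a))).1])
    rw [Finset.sum_sub_distrib, ← Finset.mul_sum, Finset.sum_const, Finset.card_univ, card_F,
      nsmul_eq_mul] at this
    exact_mod_cast this
  have k3 : ∑ a, ∑ b, re ⟪ζ, rightReg E (hX a * hY b) ζ⟫_ℂ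
      ≤ N * ∑ a, ∑ b, re ⟪ξ, ρ.U (φ (hX a * hY b)) ξ⟫_ℂ + 37 * (37 * (N * n)) := by
    have : ∑ a, ∑ b, re ⟪ζ, rightReg E (hX a * hY b) ζ⟫_ℂ
        ≤ ∑ a : F, ∑ b : F, (N * re ⟪ξ, ρ.U (φ (hX a * hY b)) ξ⟫_ℂ + N * n) :=
      Finset.sum_le_sum (fun a _ => Finset.sum_le_sum
        (fun b _ => by linarith [(abs_le.1 (key (hX a * hY b))).2]))
    simp only [Finset.sum_add_distrib, ← Finset.mul_sum, Finset.sum_const, Finset.card_univ, card_F,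
      nsmul_eq_mul] at this
    push_cast at this
    linarith
  have k4 := k2 hX
  have k5 := k2 hY
  have hn0 : 0 ≤ N * n := (abs_nonneg _).trans (key 1)
  have e : 9 * ε * ‖ξ‖ ^ 2 = 9 * n := by rw [hn]; ring
  rw [e]
  apply le_of_mul_le_mul_left _ hN0
  nlinarith

/-- Average over the `i`-th generating subgroup. -/
noncomputable def avgU (ρ : ARep G E D ε) (S : Gens G D) (i : Fin 4) : E →ₗ[ℂ] E :=
  (37 : ℂ)⁻¹ • ∑ a, ρ.U (S.x i a)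

/-- The Laplacian. -/
noncomputable def lap (ρ : ARep G E D ε) (S : Gens G D) : E →ₗ[ℂ] E :=
  ∑ i, (LinearMap.id - avgU ρ S i)

variable (ρ : ARep G E D ε) (S : Gens G D)

lemma lap_apply (ξ : E) : lap ρ S ξ = ∑ i, (ξ - avgU ρ S i ξ) := by
  simp [lap]

lemma avgU_symm (i : Fin 4) : (avgU ρ S i).IsSymmetric := by
  intro ξ η
  unfold avgU
  simp only [LinearMap.smul_apply, LinearMap.sum_apply, inner_smul_left, inner_smul_right,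
    sum_inner, inner_sum, ρ.sym, ← S.x_neg]
  congr 1
  · simp [map_ofNat]
  · exact Fintype.sum_equiv (Equiv.neg F) _ _ (fun _ => rfl)

lemma lap_symm : (lap ρ S).IsSymmetric := by
  intro ξ η
  simp only [lap_apply, sum_inner, inner_sum, inner_sub_left, inner_sub_right, avgU_symm ρ S _ ξ η]

lemma re_avgU (i : Fin 4) (ξ : E) :
    re ⟪ξ, avgU ρ S i ξ⟫_ℂ = 37⁻¹ * ∑ a, re ⟪ξ, ρ.U (S.x i a) ξ⟫_ℂ := by
  unfold avgU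
  simp

lemma re_avgU_avgU (i j : Fin 4) (ξ : E) :
    37⁻¹ * 37⁻¹ * ∑ a, ∑ b, re ⟪ξ, ρ.U (S.x i a * S.x j b) ξ⟫_ℂ - ε * ‖ξ‖ ^ 2
      ≤ re ⟪avgU ρ S i ξ, avgU ρ S j ξ⟫_ℂ := by
  have h1 : re ⟪avgU ρ S i ξ, avgU ρ S j ξ⟫_ℂ
      = 37⁻¹ * 37⁻¹ * ∑ a, ∑ b, re ⟪ρ.U (S.x i a) ξ, ρ.U (S.x j b) ξ⟫_ℂ := by
    unfold avgU
    simp only [LinearMap.smul_apply, LinearMap.sum_apply, inner_smul_left, inner_smul_right,
      sum_inner, inner_sum]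
    simp [map_ofNat, mul_assoc, Finset.mul_sum]
    exact Finset.sum_comm
  have h2 : ∑ a, ∑ b, re ⟪ξ, ρ.U (S.x i a * S.x j b) ξ⟫_ℂ
      = ∑ a, ∑ b, re ⟪ξ, ρ.U ((S.x i a)⁻¹ * S.x j b) ξ⟫_ℂ := by
    simp only [← S.x_neg]
    exact Fintype.sum_equiv (Equiv.neg F) _ _ (fun _ => by simp)
  have h3 : ∑ a : F, ∑ b : F, (re ⟪ξ, ρ.U ((S.x i a)⁻¹ * S.x j b) ξ⟫_ℂ - ε * ‖ξ‖ ^ 2)
      ≤ ∑ a, ∑ b, re ⟪ρ.U (S.x i a) ξ, ρ.U (S.x j b) ξ⟫_ℂ :=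
    Finset.sum_le_sum (fun a _ => Finset.sum_le_sum (fun b _ => by
      linarith [(abs_le.1 (ρ.gram (S.x_inv_mem i a) (S.x_mem j b) ξ)).1]))
  simp only [Finset.sum_sub_distrib, Finset.sum_const, Finset.card_univ, card_F,
    nsmul_eq_mul] at h3
  rw [h1, h2]
  push_cast at h3
  linarith

theorem gap (ξ : E) :
    (1 / 2) * re ⟪ξ, lap ρ S ξ⟫_ℂ - 70 * ε * ‖ξ‖ ^ 2 ≤ ‖lap ρ S ξ‖ ^ 2 := by
  set t : Fin 4 → ℝ := fun i => re ⟪ξ, avgU ρ S i ξ⟫_ℂ with ht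
  set n := ‖ξ‖ ^ 2 with hn
  have hq : ∀ i j, re ⟪ξ - avgU ρ S i ξ, ξ - avgU ρ S j ξ⟫_ℂ
      = n - t i - t j + re ⟪avgU ρ S i ξ, avgU ρ S j ξ⟫_ℂ := by
    intro i j
    rw [inner_sub_left, inner_sub_right, inner_sub_right, map_sub, map_sub, map_sub,
      re_inner_self_eq, avgU_symm ρ S i ξ ξ]
    simp only [ht, hn]
    ring
  have diag : ∀ i, n - t i - ε * n ≤ re ⟪ξ - avgU ρ S i ξ, ξ - avgU ρ S i ξ⟫_ℂ := by
    intro i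
    have h1 := re_avgU_avgU ρ S i i ξ
    have h2 : ∑ a, ∑ b, re ⟪ξ, ρ.U (S.x i a * S.x i b) ξ⟫_ℂ
        = 37 * ∑ b, re ⟪ξ, ρ.U (S.x i b) ξ⟫_ℂ := by
      have : ∀ a, ∑ b, re ⟪ξ, ρ.U (S.x i a * S.x i b) ξ⟫_ℂ
          = ∑ b, re ⟪ξ, ρ.U (S.x i b) ξ⟫_ℂ := by
        intro a
        simp only [← S.x_add]
        exact Fintype.sum_equiv (Equiv.addLeft a) _ _ (fun _ => rfl)
      simp only [this, Finset.sum_const, Finset.card_univ, card_F, nsmul_eq_mul]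
      norm_num
    have h3 := re_avgU ρ S i ξ
    rw [hq]
    rw [h2] at h1
    simp only [ht]
    linarith
  have off : ∀ i j, i ≠ j → -(1 / 12) * (n - t i + (n - t j)) - (11 / 2) * ε * n
      ≤ re ⟪ξ - avgU ρ S i ξ, ξ - avgU ρ S j ξ⟫_ℂ := by
    intro i j hij
    obtain ⟨φ, h1, h2, h3⟩ := S.pair i j hij
    have h4 := heis_robust ρ φ h3 ξ
    simp only [map_mul, h1, h2] at h4
    have h5 := re_avgU_avgU ρ S i j ξ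
    rw [← re_avgU, ← re_avgU] at h4
    rw [hq]
    simp only [ht]
    linarith
  have e1 : re ⟪ξ, lap ρ S ξ⟫_ℂ = ∑ i, (n - t i) := by
    rw [lap_apply, inner_sum, map_sum]
    refine Finset.sum_congr rfl (fun i _ => ?_)
    rw [inner_sub_right, map_sub, re_inner_self_eq]
  have e2 : ‖lap ρ S ξ‖ ^ 2 = ∑ i, ∑ j, re ⟪ξ - avgU ρ S i ξ, ξ - avgU ρ S j ξ⟫_ℂ := by
    rw [← re_inner_self_eq, lap_apply, sum_inner, map_sum]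
    refine Finset.sum_congr rfl (fun i _ => ?_)
    rw [inner_sum, map_sum]
  rw [e1, e2]
  simp only [Fin.sum_univ_four]
  have := diag 0; have := diag 1; have := diag 2; have := diag 3
  have := off 0 1 (by decide); have := off 0 2 (by decide); have := off 0 3 (by decide)
  have := off 1 0 (by decide); have := off 1 2 (by decide); have := off 1 3 (by decide)
  have := off 2 0 (by decide); have := off 2 1 (by decide); have := off 2 3 (by decide)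
  have := off 3 0 (by decide); have := off 3 1 (by decide); have := off 3 2 (by decide)
  linarith

/-- Displacement versus the quadratic form of the Laplacian. -/
lemma disp_eq (ξ : E) :
    |∑ i, ∑ a, ‖ρ.U (S.x i a) ξ - ξ‖ ^ 2 - 74 * re ⟪ξ, lap ρ S ξ⟫_ℂ| ≤ 148 * (ε * ‖ξ‖ ^ 2) := by
  have e1 : 74 * re ⟪ξ, lap ρ S ξ⟫_ℂ
      = ∑ i, ∑ a : F, (2 * ‖ξ‖ ^ 2 - 2 * re ⟪ξ, ρ.U (S.x i a) ξ⟫_ℂ) := by
    rw [lap_apply, inner_sum, map_sum, Finset.mul_sum]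
    refine Finset.sum_congr rfl (fun i _ => ?_)
    rw [inner_sub_right, map_sub, re_inner_self_eq, re_avgU, Finset.sum_sub_distrib,
      ← Finset.mul_sum, ← Finset.mul_sum, Finset.sum_const, Finset.card_univ, card_F, nsmul_eq_mul]
    push_cast
    ring
  rw [e1, ← Finset.sum_sub_distrib]
  refine (Finset.abs_sum_le_sum_abs _ _).trans ?_
  have : ∀ i, |∑ a, ‖ρ.U (S.x i a) ξ - ξ‖ ^ 2
      - ∑ a : F, (2 * ‖ξ‖ ^ 2 - 2 * re ⟪ξ, ρ.U (S.x i a) ξ⟫_ℂ)| ≤ 37 * (ε * ‖ξ‖ ^ 2) := by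
    intro i
    rw [← Finset.sum_sub_distrib]
    refine (Finset.abs_sum_le_sum_abs _ _).trans ?_
    have : ∀ a, |‖ρ.U (S.x i a) ξ - ξ‖ ^ 2
        - (2 * ‖ξ‖ ^ 2 - 2 * re ⟪ξ, ρ.U (S.x i a) ξ⟫_ℂ)| ≤ ε * ‖ξ‖ ^ 2 := by
      intro a
      have h := ρ.norm_sq (S.x_inv_mem i a) (S.x_mem i a) ξ
      rw [norm_sub_rev, norm_sub_sq (𝕜 := ℂ)]
      convert h using 2
      ring
    refine (Finset.sum_le_sum (fun a _ => this a)).trans ?_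
    rw [Finset.sum_const, Finset.card_univ, card_F, nsmul_eq_mul]
    norm_num
  refine (Finset.sum_le_sum (fun i _ => this i)).trans ?_
  rw [Finset.sum_const, Finset.card_univ, Fintype.card_fin, nsmul_eq_mul]
  push_cast
  linarith

lemma lap_norm_le (hε : ε ≤ 1) (ξ : E) : ‖lap ρ S ξ‖ ≤ 12 * ‖ξ‖ := by
  have h1 : ∀ i, ‖avgU ρ S i ξ‖ ≤ 2 * ‖ξ‖ := by
    intro i
    unfold avgU
    rw [LinearMap.smul_apply, LinearMap.sum_apply, norm_smul]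
    have : ‖∑ a, ρ.U (S.x i a) ξ‖ ≤ 37 * (2 * ‖ξ‖) := by
      refine (norm_sum_le _ _).trans ?_
      refine (Finset.sum_le_sum
        (fun a _ => ρ.norm_le hε (S.x_inv_mem i a) (S.x_mem i a) ξ)).trans ?_
      rw [Finset.sum_const, Finset.card_univ, card_F, nsmul_eq_mul]
      norm_num
    have e : ‖(37 : ℂ)⁻¹‖ = 37⁻¹ := by simp
    rw [e]
    linarith
  rw [lap_apply]
  refine (norm_sum_le _ _).trans ?_
  refine (Finset.sum_le_sum (fun i _ => (norm_sub_le _ _).trans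
    (add_le_add_right (h1 i) _))).trans ?_
  rw [Finset.sum_const, Finset.card_univ, Fintype.card_fin, nsmul_eq_mul]
  push_cast
  linarith

/-- Bottom of the numerical range of a bounded symmetric map with an approximate gap. -/
lemma rayleigh (T : E →ₗ[ℂ] E) (hT : T.IsSymmetric) (W : Submodule ℂ E)
    (hW : ∀ ξ ∈ W, T ξ ∈ W) (hK : ∀ ξ, ‖T ξ‖ ≤ 12 * ‖ξ‖) {η : ℝ} (hη : 0 < η)
    (hg : ∀ ξ, (1 / 2) * re ⟪ξ, T ξ⟫_ℂ - η * ‖ξ‖ ^ 2 ≤ ‖T ξ‖ ^ 2)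
    (h0 : ∃ ξ ∈ W, ‖ξ‖ = 1 ∧ re ⟪ξ, T ξ⟫_ℂ ≤ 1 / 4) :
    ∃ ξ ∈ W, ‖ξ‖ = 1 ∧ re ⟪ξ, T ξ⟫_ℂ ≤ 5 * η := by
  by_contra hcon
  push Not at hcon
  set A : Set ℝ := {r | ∃ ξ ∈ W, ‖ξ‖ = 1 ∧ re ⟪ξ, T ξ⟫_ℂ = r} with hA
  obtain ⟨ξ₀, hξ₀, hn₀, hr₀⟩ := h0
  have hne : A.Nonempty := ⟨_, ξ₀, hξ₀, hn₀, rfl⟩
  have hlb : ∀ r ∈ A, 5 * η ≤ r := by
    rintro r ⟨ξ, hξ, hn, rfl⟩
    exact (hcon ξ hξ hn).le
  have hbd : BddBelow A := ⟨5 * η, hlb⟩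
  set m := sInf A with hm
  have hm1 : 5 * η ≤ m := le_csInf hne hlb
  have hm2 : m ≤ 1 / 4 := (csInf_le hbd ⟨ξ₀, hξ₀, hn₀, rfl⟩).trans hr₀
  have hpos : ∀ ξ ∈ W, m * ‖ξ‖ ^ 2 ≤ re ⟪ξ, T ξ⟫_ℂ := by
    intro ξ hξ
    by_cases h : ξ = 0
    · simp [h]
    have hn : 0 < ‖ξ‖ := norm_pos_iff.2 h
    have h1 : m ≤ re ⟪((‖ξ‖⁻¹ : ℝ) : ℂ) • ξ, T (((‖ξ‖⁻¹ : ℝ) : ℂ) • ξ)⟫_ℂ := by
      refine csInf_le hbd ⟨_, W.smul_mem _ hξ, ?_, rfl⟩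
      rw [norm_smul, Complex.norm_real, norm_inv, norm_norm, inv_mul_cancel₀ hn.ne']
    rw [map_smul, inner_smul_left, inner_smul_right, Complex.conj_ofReal, ← mul_assoc,
      ← Complex.ofReal_mul] at h1
    have h2 : re ((((‖ξ‖⁻¹ * ‖ξ‖⁻¹ : ℝ)) : ℂ) * ⟪ξ, T ξ⟫_ℂ) = ‖ξ‖⁻¹ * ‖ξ‖⁻¹ * re ⟪ξ, T ξ⟫_ℂ :=
      RCLike.re_ofReal_mul (K := ℂ) _ _
    rw [h2] at h1
    have := mul_le_mul_of_nonneg_right h1 (sq_nonneg ‖ξ‖)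
    calc _ ≤ _ := this
      _ = _ := by field_simp
  obtain ⟨r, ⟨ξ, hξ, hn, rfl⟩, hr⟩ := exists_lt_of_csInf_lt hne
    (show sInf A < m + η / 100 by linarith)
  set q := re ⟪ξ, T ξ⟫_ℂ with hq
  have hqm : m ≤ q := by
    have := hpos ξ hξ
    rwa [hn, one_pow, mul_one] at this
  set ψ := T ξ - (m : ℂ) • ξ with hψ
  have hψW : ψ ∈ W := W.sub_mem (hW ξ hξ) (W.smul_mem _ hξ)
  have a1 : ‖ψ‖ ^ 2 = ‖T ξ‖ ^ 2 - 2 * m * q + m ^ 2 := by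
    rw [hψ, norm_sub_sq (𝕜 := ℂ), inner_smul_right, norm_smul, hn, hT ξ ξ, Complex.norm_real,
      mul_one, Real.norm_eq_abs, sq_abs]
    have : re ((m : ℂ) * ⟪ξ, T ξ⟫_ℂ) = m * q := RCLike.re_ofReal_mul (K := ℂ) _ _
    rw [this]; ring
  have a2 : re ⟪ψ, T ξ⟫_ℂ = ‖ψ‖ ^ 2 + m * re ⟪ψ, ξ⟫_ℂ := by
    have : T ξ = ψ + (m : ℂ) • ξ := by rw [hψ]; abel
    rw [this, inner_add_right, map_add, re_inner_self_eq, inner_smul_right]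
    congr 1
    exact RCLike.re_ofReal_mul (K := ℂ) _ _
  have a3 : re ⟪ψ, T ψ⟫_ℂ ≤ 12 * ‖ψ‖ ^ 2 := by
    have := (re_inner_le_norm (𝕜 := ℂ) ψ (T ψ)).trans
      (mul_le_mul_of_nonneg_left (hK ψ) (norm_nonneg _))
    nlinarith
  have a4 := hpos (ξ - ((12⁻¹ : ℝ) : ℂ) • ψ) (W.sub_mem hξ (W.smul_mem _ hψW))
  have a5 : ‖ξ - ((12⁻¹ : ℝ) : ℂ) • ψ‖ ^ 2
      = 1 - 2 * 12⁻¹ * re ⟪ψ, ξ⟫_ℂ + 12⁻¹ ^ 2 * ‖ψ‖ ^ 2 := by
    rw [norm_sub_sq (𝕜 := ℂ), inner_smul_right, norm_smul, hn, Complex.norm_real, mul_pow,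
      Real.norm_eq_abs, sq_abs]
    have : re (((12⁻¹ : ℝ) : ℂ) * ⟪ξ, ψ⟫_ℂ) = 12⁻¹ * re ⟪ξ, ψ⟫_ℂ :=
      RCLike.re_ofReal_mul (K := ℂ) _ _
    rw [this, inner_re_symm]; ring
  have a6 : re ⟪ξ - ((12⁻¹ : ℝ) : ℂ) • ψ, T (ξ - ((12⁻¹ : ℝ) : ℂ) • ψ)⟫_ℂ
      = q - 2 * 12⁻¹ * re ⟪ψ, T ξ⟫_ℂ + 12⁻¹ ^ 2 * re ⟪ψ, T ψ⟫_ℂ := by
    have b1 : re ⟪ξ, T ψ⟫_ℂ = re ⟪ψ, T ξ⟫_ℂ := by rw [← hT ξ ψ, inner_re_symm]
    rw [map_sub T, map_smul, inner_sub_left, inner_sub_right, inner_sub_right, inner_smul_right,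
      inner_smul_left, inner_smul_left, inner_smul_right, Complex.conj_ofReal,
      map_sub (re : ℂ →+ ℝ), map_sub (re : ℂ →+ ℝ), map_sub (re : ℂ →+ ℝ)]
    have r1 : ∀ z : ℂ, re (((12⁻¹ : ℝ) : ℂ) * z) = 12⁻¹ * re z := fun z =>
      RCLike.re_ofReal_mul (K := ℂ) _ _
    rw [r1, r1, r1, r1, b1]
    ring
  rw [a5, a6, a2] at a4
  have a7 : ‖ψ‖ ^ 2 ≤ 12 * (q - m) := by nlinarith [sq_nonneg ‖ψ‖]
  have a8 := hg ξ
  rw [hn] at a8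
  nlinarith

/-- Error correction. -/
theorem err_corr (hε0 : 0 < ε) (hε : ε ≤ 1 / 100) (W : Submodule ℂ E)
    (hW : ∀ i a, ∀ ξ ∈ W, ρ.U (S.x i a) ξ ∈ W)
    (h0 : ∃ ξ ∈ W, ‖ξ‖ = 1 ∧ ∀ i a, ‖ρ.U (S.x i a) ξ - ξ‖ ≤ 1 / 4) :
    ∃ ξ ∈ W, ‖ξ‖ = 1 ∧ ∀ i a, ‖ρ.U (S.x i a) ξ - ξ‖ ^ 2 ≤ 26048 * ε := by
  have hW' : ∀ ξ ∈ W, lap ρ S ξ ∈ W := by
    intro ξ hξ
    rw [lap_apply]
    refine W.sum_mem (fun i _ => W.sub_mem hξ ?_)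
    unfold avgU
    rw [LinearMap.smul_apply, LinearMap.sum_apply]
    exact W.smul_mem _ (W.sum_mem (fun a _ => hW i a ξ hξ))
  obtain ⟨ξ, hξ, hn, hr⟩ := rayleigh (lap ρ S) (lap_symm ρ S) W hW'
    (lap_norm_le ρ S (by linarith)) (η := 70 * ε) (by linarith) (gap ρ S) (by
      obtain ⟨ξ, hξ, hn, hr⟩ := h0
      refine ⟨ξ, hξ, hn, ?_⟩
      have h1 := (abs_le.1 (disp_eq ρ S ξ)).1
      have h2 : ∑ i, ∑ a, ‖ρ.U (S.x i a) ξ - ξ‖ ^ 2 ≤ ∑ _i : Fin 4, ∑ _a : F, (1 / 4 : ℝ) ^ 2 :=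
        Finset.sum_le_sum (fun i _ => Finset.sum_le_sum (fun a _ =>
          pow_le_pow_left₀ (norm_nonneg _) (hr i a) 2))
      simp only [Finset.sum_const, Finset.card_univ, card_F, Fintype.card_fin, nsmul_eq_mul] at h2
      rw [hn] at h1
      push_cast at h2
      linarith)
  refine ⟨ξ, hξ, hn, fun i a => ?_⟩
  have h1 := (abs_le.1 (disp_eq ρ S ξ)).2
  rw [hn] at h1
  have h2 : ‖ρ.U (S.x i a) ξ - ξ‖ ^ 2 ≤ ∑ i, ∑ a, ‖ρ.U (S.x i a) ξ - ξ‖ ^ 2 := by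
    refine le_trans ?_ (Finset.single_le_sum
      (f := fun i => ∑ a, ‖ρ.U (S.x i a) ξ - ξ‖ ^ 2) (fun _ _ => by positivity) (Finset.mem_univ i))
    exact Finset.single_le_sum (f := fun a => ‖ρ.U (S.x i a) ξ - ξ‖ ^ 2)
      (fun _ _ => by positivity) (Finset.mem_univ a)
  linarith

/-- Finite-dimensional exact representations: an almost invariant vector is close to an
invariant one. -/
theorem near_invariant [FiniteDimensional ℂ E] (ρ : ARep G E D 0) (X : E) :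
    ∃ X₀ : E, (∀ i a, ρ.U (S.x i a) X₀ = X₀) ∧ ⟪X - X₀, X₀⟫_ℂ = 0 ∧
      37 * ‖X - X₀‖ ^ 2 ≤ ∑ i, ∑ a, ‖ρ.U (S.x i a) X - X‖ ^ 2 := by
  have hd : ∀ ξ, ∑ i, ∑ a, ‖ρ.U (S.x i a) ξ - ξ‖ ^ 2 = 74 * re ⟪ξ, lap ρ S ξ⟫_ℂ := by
    intro ξ
    have := disp_eq ρ S ξ
    rw [zero_mul, mul_zero, abs_nonpos_iff] at this
    linarith
  have hpos : ∀ ξ, 0 ≤ re ⟪ξ, lap ρ S ξ⟫_ℂ := by
    intro ξ
    have : 0 ≤ ∑ i, ∑ a, ‖ρ.U (S.x i a) ξ - ξ‖ ^ 2 := by positivity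
    linarith [hd ξ]
  have hT := lap_symm ρ S
  obtain ⟨Y, ⟨Z, rfl⟩, X₀, hX₀, rfl⟩ :=
    (LinearMap.range (lap ρ S)).exists_add_mem_mem_orthogonal X
  have h0 : lap ρ S X₀ = 0 := by
    rw [hT.orthogonal_range] at hX₀
    exact hX₀
  refine ⟨X₀, fun i a => ?_, ?_, ?_⟩
  · have h1 := hd X₀
    rw [h0, inner_zero_right, map_zero, mul_zero] at h1
    have h2 := (Finset.sum_eq_zero_iff_of_nonneg (fun _ _ => by positivity)).1 h1 i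
      (Finset.mem_univ _)
    have h3 := (Finset.sum_eq_zero_iff_of_nonneg (fun _ _ => by positivity)).1 h2 a
      (Finset.mem_univ _)
    exact sub_eq_zero.1 (norm_eq_zero.1 (pow_eq_zero_iff two_ne_zero |>.1 h3))
  · rw [add_sub_cancel_right, hT, h0, inner_zero_right]
  · rw [add_sub_cancel_right, hd, map_add (lap ρ S), h0, add_zero, inner_add_left,
      ← hT X₀, h0, inner_zero_left, add_zero]
    have g1 := gap ρ S Z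
    have g2 := hpos (Z - (2 : ℂ) • lap ρ S Z)
    have b1 : re ⟪Z, lap ρ S (lap ρ S Z)⟫_ℂ = ‖lap ρ S Z‖ ^ 2 := by
      rw [← hT Z, re_inner_self_eq]
    have r1 : ∀ z : ℂ, re ((2 : ℂ) * z) = 2 * re z := fun z => by simp
    rw [map_sub (lap ρ S), map_smul, inner_sub_left, inner_sub_right, inner_sub_right,
      inner_smul_right, inner_smul_left, inner_smul_left, inner_smul_right, map_ofNat, map_sub,
      map_sub, map_sub, r1, r1, r1, r1, b1, re_inner_self_eq] at g2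
    linarith

end Vale.Agent.P083
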