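import Mathlib

/-! The Heisenberg group over `ZMod 37` and the angle between its two generating subgroups. -/

open scoped InnerProductSpace
open RCLike

namespace Vale.Agent.P083

instance fact37 : Fact (Nat.Prime 37) := ⟨by norm_num⟩

abbrev F : Type := ZMod 37

@[ext] structure Heis where
  a : F
  b : F
  c : F

instance : Finite Heis :=
  Finite.of_injective (fun g : Heis => (g.a, g.b, g.c)) (by
    intro g h hgh
    simp only [Prod.mk.injEq] at hgh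
    exact Heis.ext hgh.1 hgh.2.1 hgh.2.2)

instance : Mul Heis := ⟨fun g h => ⟨g.a + h.a, g.b + h.b, g.c + h.c + g.a * h.b⟩⟩
instance : One Heis := ⟨⟨0, 0, 0⟩⟩
instance : Inv Heis := ⟨fun g => ⟨-g.a, -g.b, -g.c + g.a * g.b⟩⟩

@[simp] lemma Heis.mul_a (g h : Heis) : (g * h).a = g.a + h.a := rfl
@[simp] lemma Heis.mul_b (g h : Heis) : (g * h).b = g.b + h.b := rfl
@[simp] lemma Heis.mul_c (g h : Heis) : (g * h).c = g.c + h.c + g.a * h.b := rfl
@[simp] lemma Heis.one_a : (1 : Heis).a = 0 := rfl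
@[simp] lemma Heis.one_b : (1 : Heis).b = 0 := rfl
@[simp] lemma Heis.one_c : (1 : Heis).c = 0 := rfl
@[simp] lemma Heis.inv_a (g : Heis) : (g⁻¹).a = -g.a := rfl
@[simp] lemma Heis.inv_b (g : Heis) : (g⁻¹).b = -g.b := rfl
@[simp] lemma Heis.inv_c (g : Heis) : (g⁻¹).c = -g.c + g.a * g.b := rfl

instance : Group Heis where
  mul_assoc g h k := by ext <;> simp <;> ring
  one_mul g := by ext <;> simp
  mul_one g := by ext <;> simp
  inv_mul_cancel g := by ext <;> simp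

def hX (a : F) : Heis := ⟨a, 0, 0⟩
def hY (b : F) : Heis := ⟨0, b, 0⟩
def hZ (c : F) : Heis := ⟨0, 0, c⟩

lemma hX_add (a b : F) : hX (a + b) = hX a * hX b := by ext <;> simp [hX]
lemma hY_add (a b : F) : hY (a + b) = hY a * hY b := by ext <;> simp [hY]
lemma hZ_add (a b : F) : hZ (a + b) = hZ a * hZ b := by ext <;> simp [hZ]
lemma hZ_comm (c : F) (g : Heis) : hZ c * g = g * hZ c := by ext <;> simp [hZ, add_comm]
lemma hX_mul_hY (a b : F) : hX a * hY b = hY b * hX a * hZ (a * b) := by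
  ext <;> simp [hX, hY, hZ]

/-- The automorphism exchanging the two generating subgroups. -/
def Heis.swap : Heis →* Heis where
  toFun g := ⟨g.b, g.a, g.a * g.b - g.c⟩
  map_one' := by ext <;> simp
  map_mul' g h := by
    ext
    · simp
    · simp
    · simp; ring

lemma swap_hX (a : F) : Heis.swap (hX a) = hY a := by ext <;> simp [Heis.swap, hX, hY]
lemma swap_hY (a : F) : Heis.swap (hY a) = hX a := by ext <;> simp [Heis.swap, hX, hY]

lemma card_F : Fintype.card F = 37 := ZMod.card 37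

lemma par_zero {G : Type*} [Group G] {x : F → G} (hx : ∀ a b, x (a + b) = x a * x b) :
    x 0 = 1 := by
  have := hx 0 0
  simpa using this

lemma par_neg {G : Type*} [Group G] {x : F → G} (hx : ∀ a b, x (a + b) = x a * x b) (a : F) :
    x (-a) = (x a)⁻¹ := by
  have := hx (-a) a
  rw [neg_add_cancel, par_zero hx] at this
  exact eq_inv_of_mul_eq_one_left this.symm

section TwoProj

variable {E : Type*} [NormedAddCommGroup E] [InnerProductSpace ℂ E]

lemma re_inner_self_eq (ξ : E) : re ⟪ξ, ξ⟫_ℂ = ‖ξ‖ ^ 2 := inner_self_eq_norm_sq ξ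

lemma proj_re (p : Module.End ℂ E) (s : p.IsSymmetric) (i : p * p = p) (ξ : E) :
    re ⟪ξ, p ξ⟫_ℂ = ‖p ξ‖ ^ 2 := by
  have h : p (p ξ) = p ξ := LinearMap.congr_fun i ξ
  rw [← re_inner_self_eq, s ξ (p ξ), h]

lemma two_proj_comm (p q : Module.End ℂ E) (sp : p.IsSymmetric) (sq : q.IsSymmetric)
    (ip : p * p = p) (iq : q * q = q) (α : E) (h : p (q α) = q (p α)) :
    0 ≤ (2 + 2 * (1 / 6 : ℝ)) * ‖α‖ ^ 2
      - (2 + (1 / 6 : ℝ)) * (re ⟪α, p α⟫_ℂ + re ⟪α, q α⟫_ℂ) + 2 * re ⟪α, p (q α)⟫_ℂ := by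
  have hp : ∀ ξ, p (p ξ) = p ξ := fun ξ => LinearMap.congr_fun ip ξ
  have hq : ∀ ξ, q (q ξ) = q ξ := fun ξ => LinearMap.congr_fun iq ξ
  have e1 := proj_re p sp ip α
  have e2 := proj_re q sq iq α
  set β := α - p α - q α + p (q α) with hβ
  have hpβ : p β = 0 := by simp [hβ, hp]
  have hqβ : q β = 0 := by
    have : q (p (q α)) = q (p α) := by rw [h, hq]
    simp [hβ, hq, this]
  have h1 : ⟪β, β⟫_ℂ = ⟪α, β⟫_ℂ := by
    conv_lhs => arg 2; rw [hβ]
    rw [inner_add_left, inner_sub_left, inner_sub_left, sp α β, sq α β, sp (q α) β, hpβ, hqβ]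
    simp
  have h2 : re ⟪α, β⟫_ℂ = ‖α‖ ^ 2 - re ⟪α, p α⟫_ℂ - re ⟪α, q α⟫_ℂ + re ⟪α, p (q α)⟫_ℂ := by
    rw [hβ, inner_add_right, inner_sub_right, inner_sub_right, map_add, map_sub, map_sub,
      re_inner_self_eq]
  have h3 : 0 ≤ re ⟪α, β⟫_ℂ := by rw [← h1, re_inner_self_eq]; positivity
  have h4 : re ⟪α, p α⟫_ℂ ≤ ‖α‖ ^ 2 := by
    have := norm_sub_sq (𝕜 := ℂ) α (p α)
    nlinarith [sq_nonneg ‖α - p α‖]
  have h5 : re ⟪α, q α⟫_ℂ ≤ ‖α‖ ^ 2 := by
    have := norm_sub_sq (𝕜 := ℂ) α (q α)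
    nlinarith [sq_nonneg ‖α - q α‖]
  linarith

lemma two_proj_angle (p q : Module.End ℂ E) (sp : p.IsSymmetric) (sq : q.IsSymmetric)
    (ip : p * p = p) (iq : q * q = q) (β : E) (h : p (q (p β)) = (37 : ℂ)⁻¹ • p β) :
    0 ≤ (2 + 2 * (1 / 6 : ℝ)) * ‖β‖ ^ 2
      - (2 + (1 / 6 : ℝ)) * (re ⟪β, p β⟫_ℂ + re ⟪β, q β⟫_ℂ) + 2 * re ⟪β, p (q β)⟫_ℂ := by
  have hq : ∀ ξ, q (q ξ) = q ξ := fun ξ => LinearMap.congr_fun iq ξ
  have e1 := proj_re p sp ip β
  have e2 := proj_re q sq iq β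
  have e3 : ‖q (p β)‖ ^ 2 = 37⁻¹ * ‖p β‖ ^ 2 := by
    rw [← proj_re q sq iq (p β), sp β (q (p β)), h, inner_smul_right, ← e1]
    simp
  have e4 : ‖q (p β)‖ ≤ (1 / 6) * ‖p β‖ := by
    apply abs_le_of_sq_le_sq' _ (by positivity) |>.2
    rw [e3]
    nlinarith [sq_nonneg ‖p β‖]
  have e5 : re ⟪β, p (q β)⟫_ℂ = re ⟪p β, q β⟫_ℂ := by rw [sp β (q β)]
  have e6 : re ⟪p β, q β⟫_ℂ ≤ (1 / 6) * ‖p β‖ * ‖q β‖ := by
    have : ⟪p β, q β⟫_ℂ = ⟪q (p β), q β⟫_ℂ := by rw [sq (p β) (q β), hq]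
    rw [this]
    exact (re_inner_le_norm _ _).trans (mul_le_mul_of_nonneg_right e4 (norm_nonneg _))
  have e7 := norm_sub_sq (𝕜 := ℂ) (((7 / 6 : ℝ) : ℂ) • β) (p β + q β)
  have e8 := norm_add_sq (𝕜 := ℂ) (p β) (q β)
  have e9 : ‖((7 / 6 : ℝ) : ℂ) • β‖ ^ 2 = (7 / 6) ^ 2 * ‖β‖ ^ 2 := by
    rw [norm_smul, mul_pow, Complex.norm_real]
    norm_num
  have e10 : re ⟪((7 / 6 : ℝ) : ℂ) • β, p β + q β⟫_ℂ
      = (7 / 6) * (re ⟪β, p β⟫_ℂ + re ⟪β, q β⟫_ℂ) := by
    rw [inner_smul_left, inner_add_right, Complex.conj_ofReal]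
    simp
  have e11 := sq_nonneg ‖((7 / 6 : ℝ) : ℂ) • β - (p β + q β)‖
  rw [e7, e8, e9, e10, e1, e2] at e11
  rw [e5, e1, e2]
  nlinarith [sq_nonneg (‖p β‖ - ‖q β‖)]

lemma two_proj (p q e : Module.End ℂ E) (sp : p.IsSymmetric) (sq : q.IsSymmetric)
    (se : e.IsSymmetric) (ip : p * p = p) (iq : q * q = q) (ie : e * e = e)
    (cp : e * p = p * e) (cq : e * q = q * e) (h12 : p * q * e = q * p * e)
    (h121 : p * q * p * (1 - e) = (37 : ℂ)⁻¹ • (p * (1 - e))) (ξ : E) :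
    0 ≤ (2 + 2 * (1 / 6 : ℝ)) * ‖ξ‖ ^ 2
      - (2 + (1 / 6 : ℝ)) * (re ⟪ξ, p ξ⟫_ℂ + re ⟪ξ, q ξ⟫_ℂ) + 2 * re ⟪ξ, p (q ξ)⟫_ℂ := by
  have hee : ∀ η, e (e η) = e η := fun η => LinearMap.congr_fun ie η
  have split : ∀ T : Module.End ℂ E, e * T = T * e →
      re ⟪ξ, T ξ⟫_ℂ = re ⟪e ξ, T (e ξ)⟫_ℂ + re ⟪ξ - e ξ, T (ξ - e ξ)⟫_ℂ := by
    intro T hT
    have hc : ∀ η, e (T η) = T (e η) := fun η => LinearMap.congr_fun hT η
    have a1 : ⟪e ξ, T (e ξ)⟫_ℂ = ⟪ξ, T (e ξ)⟫_ℂ := by rw [se ξ, hc, hee]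
    have a2 : ⟪e ξ, T ξ⟫_ℂ = ⟪ξ, T (e ξ)⟫_ℂ := by rw [se ξ, hc]
    rw [map_sub T, inner_sub_left, inner_sub_right, inner_sub_right, a1, a2, ← map_add]
    congr 1
    ring
  have s0 := split 1 (by simp)
  have s1 := split p cp
  have s2 := split q cq
  have s3 := split (p * q) (by rw [← mul_assoc, cp, mul_assoc, cq, mul_assoc])
  simp only [Module.End.one_apply, Module.End.mul_apply, re_inner_self_eq] at s0 s3
  have t1 := two_proj_comm p q sp sq ip iq (e ξ) (LinearMap.congr_fun h12 ξ)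
  have t2 := two_proj_angle p q sp sq ip iq (ξ - e ξ) (by
    have := LinearMap.congr_fun h121 ξ
    simpa only [Module.End.mul_apply, LinearMap.sub_apply, Module.End.one_apply,
      LinearMap.smul_apply] using this)
  rw [s0, s1, s2, s3]
  linarith

/-- Average of a representation over a one-parameter subgroup. -/
noncomputable def avg {G : Type*} [Group G] (R : G →* Module.End ℂ E) (x : F → G) :
    Module.End ℂ E := (37 : ℂ)⁻¹ • ∑ a, R (x a)

variable {G : Type*} [Group G] (R : G →* Module.End ℂ E)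

lemma mul_avg {x : F → G} (hx : ∀ a b, x (a + b) = x a * x b) (a : F) :
    R (x a) * avg R x = avg R x := by
  unfold avg
  rw [mul_smul_comm, Finset.mul_sum]
  congr 1
  simp only [← map_mul, ← hx]
  exact Fintype.sum_equiv (Equiv.addLeft a) _ _ (fun _ => rfl)

lemma avg_mul {x : F → G} (hx : ∀ a b, x (a + b) = x a * x b) (a : F) :
    avg R x * R (x a) = avg R x := by
  unfold avg
  rw [smul_mul_assoc, Finset.sum_mul]
  congr 1
  simp only [← map_mul, ← hx]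
  exact Fintype.sum_equiv (Equiv.addRight a) _ _ (fun _ => rfl)

lemma mul_avg_of_fixed {x : F → G} (T : Module.End ℂ E) (hT : ∀ a, T * R (x a) = T) :
    T * avg R x = T := by
  unfold avg
  rw [mul_smul_comm, Finset.mul_sum]
  simp only [hT, Finset.sum_const, Finset.card_univ, card_F]
  rw [← Nat.cast_smul_eq_nsmul ℂ, smul_smul]
  norm_num

lemma avg_idem {x : F → G} (hx : ∀ a b, x (a + b) = x a * x b) :
    avg R x * avg R x = avg R x := mul_avg_of_fixed R _ (avg_mul R hx)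

lemma avg_symm (hs : ∀ g ξ η, ⟪R g ξ, η⟫_ℂ = ⟪ξ, R g⁻¹ η⟫_ℂ) {x : F → G}
    (hx : ∀ a b, x (a + b) = x a * x b) : (avg R x).IsSymmetric := by
  intro ξ η
  unfold avg
  simp only [LinearMap.smul_apply, LinearMap.sum_apply, inner_smul_left, inner_smul_right,
    sum_inner, inner_sum, hs, ← par_neg hx]
  congr 1
  · simp [map_ofNat]
  · exact Fintype.sum_equiv (Equiv.neg F) _ _ (fun _ => rfl)

lemma avg_comm {x : F → G} (T : Module.End ℂ E) (hT : ∀ a, R (x a) * T = T * R (x a)) :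
    avg R x * T = T * avg R x := by
  unfold avg
  rw [smul_mul_assoc, mul_smul_comm, Finset.sum_mul, Finset.mul_sum]
  simp only [hT]

theorem heis_exact (R : Heis →* Module.End ℂ E)
    (hs : ∀ g ξ η, ⟪R g ξ, η⟫_ℂ = ⟪ξ, R g⁻¹ η⟫_ℂ) (ξ : E) :
    0 ≤ (2 + 2 * (1 / 6 : ℝ)) * re ⟪ξ, R 1 ξ⟫_ℂ
      - (2 + (1 / 6 : ℝ)) * (37⁻¹ * ∑ a, re ⟪ξ, R (hX a) ξ⟫_ℂ + 37⁻¹ * ∑ b, re ⟪ξ, R (hY b) ξ⟫_ℂ)
      + 2 * (37⁻¹ * 37⁻¹ * ∑ a, ∑ b, re ⟪ξ, R (hX a * hY b) ξ⟫_ℂ) := by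
  have zc : ∀ c g, R (hZ c) * R g = R g * R (hZ c) := by
    intro c g; rw [← map_mul, ← map_mul, hZ_comm]
  have zX : ∀ c, R (hZ c) * avg R hX = avg R hX * R (hZ c) := fun c =>
    (avg_comm R _ (fun a => (zc c _).symm)).symm
  have zY : ∀ c, R (hZ c) * avg R hY = avg R hY * R (hZ c) := fun c =>
    (avg_comm R _ (fun a => (zc c _).symm)).symm
  have h12 : avg R hX * avg R hY * avg R hZ = avg R hY * avg R hX * avg R hZ := by
    have key : ∀ a b, R (hX a) * R (hY b) * avg R hZ = R (hY b) * R (hX a) * avg R hZ := by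
      intro a b
      rw [← map_mul, hX_mul_hY, map_mul, map_mul, mul_assoc, mul_avg R hZ_add]
    have k2 : ∀ a, R (hX a) * (avg R hY * avg R hZ) = avg R hY * R (hX a) * avg R hZ := by
      intro a
      conv_lhs => rw [avg]
      conv_rhs => rw [avg]
      simp only [smul_mul_assoc, mul_smul_comm, Finset.sum_mul, Finset.mul_sum, ← mul_assoc, key]
    rw [mul_assoc]
    conv_lhs => rw [avg]
    conv_rhs => arg 1; arg 2; rw [avg]
    simp only [smul_mul_assoc, mul_smul_comm, Finset.sum_mul, Finset.mul_sum, k2]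
  have h121 : avg R hX * avg R hY * avg R hX * (1 - avg R hZ)
      = (37 : ℂ)⁻¹ • (avg R hX * (1 - avg R hZ)) := by
    have key : ∀ b, b ≠ 0 → avg R hX * R (hY b) * avg R hX * (1 - avg R hZ) = 0 := by
      intro b hb
      have : avg R hX * R (hY b) * avg R hX * avg R hZ = avg R hX * R (hY b) * avg R hX := by
        apply mul_avg_of_fixed
        intro c
        have h1 : c = c / b * b := by field_simp
        calc avg R hX * R (hY b) * avg R hX * R (hZ c)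
            = avg R hX * R (hY b) * (R (hX (c / b)) * avg R hX) * R (hZ c) := by
              rw [mul_avg R hX_add]
          _ = avg R hX * (R (hY b) * R (hX (c / b)) * R (hZ c)) * avg R hX := by
              simp only [mul_assoc, zX]
          _ = avg R hX * (R (hX (c / b)) * R (hY b)) * avg R hX := by
              rw [← map_mul, ← map_mul, ← map_mul, hX_mul_hY, ← h1]
          _ = avg R hX * R (hY b) * avg R hX := by
              rw [← mul_assoc, avg_mul R hX_add]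
      rw [mul_sub, mul_one, this, sub_self]
    conv_lhs => arg 1; arg 1; arg 2; rw [avg]
    rw [mul_smul_comm, smul_mul_assoc, smul_mul_assoc, Finset.mul_sum, Finset.sum_mul,
      Finset.sum_mul, Finset.sum_eq_single (0 : F) (fun b _ hb => key b hb) (by simp),
      par_zero hY_add, map_one, mul_one, avg_idem R hX_add]
  have main := two_proj (avg R hX) (avg R hY) (avg R hZ) (avg_symm R hs hX_add)
    (avg_symm R hs hY_add) (avg_symm R hs hZ_add) (avg_idem R hX_add) (avg_idem R hY_add)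
    (avg_idem R hZ_add) (avg_comm R _ zX) (avg_comm R _ zY) h12 h121 ξ
  have r1 : ∀ x : F → Heis, re ⟪ξ, avg R x ξ⟫_ℂ = 37⁻¹ * ∑ a, re ⟪ξ, R (x a) ξ⟫_ℂ := by
    intro x
    unfold avg
    simp
  have r2 : re ⟪ξ, avg R hX (avg R hY ξ)⟫_ℂ
      = 37⁻¹ * 37⁻¹ * ∑ a, ∑ b, re ⟪ξ, R (hX a * hY b) ξ⟫_ℂ := by
    unfold avg
    simp [mul_assoc, Finset.mul_sum]
    exact Finset.sum_comm
  rw [r1, r1, r2] at main
  simpa only [map_one, Module.End.one_apply, re_inner_self_eq] using main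

end TwoProj

end Vale.Agent.P083
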