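import Vale.Agent.P083.Pack
import Vale.Agent.P083.Comb
import Vale.Agent.P083.Cuntz

/-! No approximate solution of the relations exists in an algebra generated by a Cuntz pair. -/

open scoped InnerProductSpace ComplexConjugate Matrix

namespace Vale.Agent.P083

/-- The output letter. -/
noncomputable def outL (i : Fin 4) (a : F) (x : Alph) : Alph := (self_sim i a x).choose

lemma outL_spec (i : Fin 4) (a : F) (x : Alph) : ∃ p : (Fin 4 × F) × (Fin 4 × F), ∀ n (y : L n),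
    gen i a • cons x y = cons (outL i a x) ((gen p.1.1 p.1.2 * gen p.2.1 p.2.2) • y) := by
  obtain ⟨i₁, a₁, i₂, a₂, h⟩ := (self_sim i a x).choose_spec
  exact ⟨((i₁, a₁), (i₂, a₂)), h⟩

/-- The restriction, a product of two generators. -/
noncomputable def resG (i : Fin 4) (a : F) (x : Alph) : Gr :=
  gen (outL_spec i a x).choose.1.1 (outL_spec i a x).choose.1.2 *
    gen (outL_spec i a x).choose.2.1 (outL_spec i a x).choose.2.2

lemma resG_spec (i : Fin 4) (a : F) (x : Alph) {n : ℕ} (y : L n) :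
    gen i a • cons x y = cons (outL i a x) (resG i a x • y) :=
  (outL_spec i a x).choose_spec n y

lemma resG_eq (i : Fin 4) (a : F) (x : Alph) : ∃ i₁ a₁ i₂ a₂, resG i a x = gen i₁ a₁ * gen i₂ a₂ :=
  ⟨_, _, _, _, rfl⟩

variable {H : Type*} [NormedAddCommGroup H] [InnerProductSpace ℂ H] [CompleteSpace H]

/-- Vectors with vanishing sums along the last digit. -/
def Wsub (H : Type*) [NormedAddCommGroup H] [InnerProductSpace ℂ H] (n : ℕ) :
    Submodule ℂ (PiLp 2 (fun _ : L (n + 1) => H)) where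
  carrier := {ξ | ∀ y, ∑ c, ξ (tr1 n c • y) = 0}
  add_mem' := fun {ξ η} h h' y => by simp [Finset.sum_add_distrib, h y, h' y]
  zero_mem' := fun y => by simp
  smul_mem' := fun c ξ h y => by simp [← Finset.smul_sum, h y]

section

variable {ε : ℝ} (hε : 0 ≤ ε) (v : Gr → H →L[ℂ] H) (h1 : v 1 = 1) (hs : ∀ g, star (v g) = v g⁻¹)
  (hm : ∀ g ∈ Dom, ∀ h ∈ Dom, ‖v g * v h - v (g * h)‖ ≤ ε)

lemma disp_sq {n : ℕ} (g : Gr) (ξ : PiLp 2 (fun _ : L n => H)) :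
    ‖(tensRep hε (L n) v h1 hs hm).U g ξ - ξ‖ ^ 2 = ∑ y, ‖v g (ξ y) - ξ (g • y)‖ ^ 2 := by
  rw [PiLp.norm_sq_eq_of_L2]
  refine (Fintype.sum_equiv (MulAction.toPerm g) _ _ (fun y => ?_)).symm
  simp [tensRep_apply]

lemma W_inv (n : ℕ) (i : Fin 4) (a : F) (ξ : PiLp 2 (fun _ : L (n + 1) => H))
    (hξ : ξ ∈ Wsub H n) : (tensRep hε (L (n + 1)) v h1 hs hm).U (gens.x i a) ξ ∈ Wsub H n := by
  intro y
  simp only [tensRep_apply, ← gens.x_neg]
  simp only [gens_x, gen_tr1]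
  rw [← map_sum, hξ, map_zero]

end

lemma normalize {G E : Type*} [Group G] [NormedAddCommGroup E] [InnerProductSpace ℂ E]
    {D : Set G} {ε : ℝ} (ρ : ARep G E D ε) (S : Gens G D) (W : Submodule ℂ E) (V : E)
    (hV : V ∈ W) (h0 : 0 < ‖V‖) (h : ∀ i a, ‖ρ.U (S.x i a) V - V‖ ^ 2 ≤ ‖V‖ ^ 2 / 16) :
    ∃ ξ ∈ W, ‖ξ‖ = 1 ∧ ∀ i a, ‖ρ.U (S.x i a) ξ - ξ‖ ≤ 1 / 4 := by
  refine ⟨((‖V‖⁻¹ : ℝ) : ℂ) • V, W.smul_mem _ hV, ?_, fun i a => ?_⟩
  · rw [norm_smul, Complex.norm_real, norm_inv, norm_norm, inv_mul_cancel₀ h0.ne']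
  · rw [map_smul, ← smul_sub, norm_smul, Complex.norm_real, norm_inv, norm_norm,
      inv_mul_le_iff₀ h0]
    apply abs_le_of_sq_le_sq' _ (by positivity) |>.2
    nlinarith [h i a]

theorem all_levels (v : Gr → H →L[ℂ] H) (h1 : v 1 = 1) (hs : ∀ g, star (v g) = v g⁻¹)
    (hm : ∀ g ∈ Dom, ∀ h ∈ Dom, ‖v g * v h - v (g * h)‖ ≤ 1 / 10 ^ 10)
    (A : Alph → H →L[ℂ] H) (hA : ∀ x, ‖star (A x) * A x - 1‖ ≤ 1 / 10 ^ 10)
    (hrel : ∀ i a x, ‖v (gen i a) * A x - A (outL i a x) * v (resG i a x)‖ ≤ 1 / 10 ^ 10)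
    (η₀ : PiLp 2 (fun _ : L 1 => H)) (hη₀ : η₀ ∈ Wsub H 0) (hn₀ : 0 < ‖η₀‖)
    (hb : ∀ i a, ∑ y, ‖v (gen i a) (η₀ y) - η₀ (gen i a • y)‖ ^ 2 ≤ ‖η₀‖ ^ 2 / 16) (n : ℕ) :
    ∃ ξ ∈ Wsub H n, ‖ξ‖ = 1 ∧
      ∀ i a, ∑ y, ‖v (gen i a) (ξ y) - ξ (gen i a • y)‖ ^ 2 ≤ (1 / 500) ^ 2 := by
  have hε : (0 : ℝ) ≤ 1 / 10 ^ 10 := by positivity
  have ec : ∀ n (V : PiLp 2 (fun _ : L (n + 1) => H)), V ∈ Wsub H n → 0 < ‖V‖ →
      (∀ i a, ∑ y, ‖v (gen i a) (V y) - V (gen i a • y)‖ ^ 2 ≤ ‖V‖ ^ 2 / 16) →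
      ∃ ξ ∈ Wsub H n, ‖ξ‖ = 1 ∧
        ∀ i a, ∑ y, ‖v (gen i a) (ξ y) - ξ (gen i a • y)‖ ^ 2 ≤ (1 / 500) ^ 2 := by
    intro n V hV h0 h
    obtain ⟨ξ, hξ, hn, hd⟩ := err_corr (tensRep hε (L (n + 1)) v h1 hs hm) gens (by positivity)
      (by norm_num) (Wsub H n) (W_inv hε v h1 hs hm n)
      (normalize _ gens _ V hV h0 (fun i a => by rw [disp_sq]; exact h i a))
    refine ⟨ξ, hξ, hn, fun i a => ?_⟩
    have := hd i a
    rw [disp_sq] at this
    exact this.trans (by norm_num)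
  have hA1 : ∀ x ξ, |‖A x ξ‖ ^ 2 - ‖ξ‖ ^ 2| ≤ 1 / 10 ^ 10 * ‖ξ‖ ^ 2 := by
    intro x ξ
    have e : ‖A x ξ‖ ^ 2 - ‖ξ‖ ^ 2 = RCLike.re ⟪ξ, (star (A x) * A x - 1) ξ⟫_ℂ := by
      rw [sub_apply, inner_sub_right, map_sub, mul_apply_eq_comp,
        ContinuousLinearMap.star_eq_adjoint, ContinuousLinearMap.adjoint_inner_right,
        one_apply_eq_self, re_inner_self_eq, re_inner_self_eq]
    rw [e]
    calc _ ≤ ‖⟪ξ, (star (A x) * A x - 1) ξ⟫_ℂ‖ := RCLike.abs_re_le_norm _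
      _ ≤ ‖ξ‖ * (1 / 10 ^ 10 * ‖ξ‖) := (norm_inner_le_norm _ _).trans
          (mul_le_mul_of_nonneg_left ((ContinuousLinearMap.le_opNorm _ _).trans
            (mul_le_mul_of_nonneg_right (hA x) (norm_nonneg _))) (norm_nonneg _))
      _ = _ := by ring
  have hA2 : ∀ x ξ, ‖A x ξ‖ ≤ 2 * ‖ξ‖ := by
    intro x ξ
    apply abs_le_of_sq_le_sq' _ (by positivity) |>.2
    nlinarith [(abs_le.1 (hA1 x ξ)).2, sq_nonneg ‖ξ‖]
  induction n with
  | zero => exact ec 0 η₀ hη₀ hn₀ hb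
  | succ n ih =>
    obtain ⟨ξ, hξ, hn, hd⟩ := ih
    set ρ := tensRep hε (L (n + 1)) v h1 hs hm with hρ
    have hd' : ∀ i a, ‖ρ.U (gen i a) ξ - ξ‖ ≤ 1 / 500 := by
      intro i a
      apply abs_le_of_sq_le_sq' _ (by positivity) |>.2
      rw [hρ, disp_sq]
      exact hd i a
    have hres : ∀ i a x, ∑ y, ‖v (resG i a x) (ξ y) - ξ (resG i a x • y)‖ ^ 2 ≤ (1 / 100) ^ 2 := by
      intro i a x
      obtain ⟨i₁, a₁, i₂, a₂, e⟩ := resG_eq i a x
      rw [← disp_sq hε v h1 hs hm, e]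
      refine pow_le_pow_left₀ (norm_nonneg _) ?_ 2
      have t1 := ρ.mul _ (gens.x_mem i₁ a₁) _ (gens.x_mem i₂ a₂) ξ
      have t2 := ρ.norm_le (by norm_num) (gens.x_inv_mem i₁ a₁) (gens.x_mem i₁ a₁)
        (ρ.U (gen i₂ a₂) ξ - ξ)
      have t3 := hd' i₁ a₁
      have t4 := hd' i₂ a₂
      rw [gens_x] at t1 t2
      have e2 : ρ.U (gen i₁ a₁ * gen i₂ a₂) ξ - ξ
          = -(ρ.U (gen i₁ a₁) (ρ.U (gen i₂ a₂) ξ) - ρ.U (gen i₁ a₁ * gen i₂ a₂) ξ)
            + ρ.U (gen i₁ a₁) (ρ.U (gen i₂ a₂) ξ - ξ) + (ρ.U (gen i₁ a₁) ξ - ξ) := by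
        rw [map_sub]; abel
      rw [e2]
      refine (norm_add₃_le).trans ?_
      rw [norm_neg]
      rw [hn] at t1
      linarith
    let V : PiLp 2 (fun _ : L (n + 2) => H) := WithLp.toLp 2
      (fun z => A ((consEquiv (n + 1)).symm z).1 (ξ ((consEquiv (n + 1)).symm z).2))
    have hV : ∀ x y, V (cons x y) = A x (ξ y) := by
      intro x y
      have : (consEquiv (n + 1)).symm (cons x y) = (x, y) :=
        (consEquiv (n + 1)).symm_apply_apply (x, y)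
      simp only [V, this]
    have hsum : ∀ f : L (n + 2) → ℝ, ∑ z, f z = ∑ x, ∑ y, f (cons x y) := by
      intro f
      rw [← (consEquiv (n + 1)).sum_comp, Fintype.sum_prod_type]
      rfl
    have hξn : ∑ y, ‖ξ y‖ ^ 2 = 1 := by rw [← PiLp.norm_sq_eq_of_L2, hn, one_pow]
    set N : ℝ := ((Fintype.card Alph : ℕ) : ℝ) with hN
    have hN0 : 0 < N := by rw [hN]; exact_mod_cast Fintype.card_pos
    have hVn : N / 2 ≤ ‖V‖ ^ 2 := by
      rw [PiLp.norm_sq_eq_of_L2, hsum]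
      have : ∀ x, (1 / 2 : ℝ) ≤ ∑ y, ‖V (cons x y)‖ ^ 2 := by
        intro x
        have : ∑ y, (1 / 2 : ℝ) * ‖ξ y‖ ^ 2 ≤ ∑ y, ‖V (cons x y)‖ ^ 2 :=
          Finset.sum_le_sum (fun y _ => by
            rw [hV]
            nlinarith [(abs_le.1 (hA1 x (ξ y))).1, sq_nonneg ‖ξ y‖])
        rwa [← Finset.mul_sum, hξn, mul_one] at this
      refine le_trans (le_of_eq ?_) (Finset.sum_le_sum (fun x _ => this x))
      rw [Finset.sum_const, Finset.card_univ, nsmul_eq_mul]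
      ring
    refine ec (n + 1) V (fun z => ?_) ?_ (fun i a => ?_)
    · obtain ⟨⟨x, y⟩, rfl⟩ := (consEquiv (n + 1)).surjective z
      change ∑ c, V (tr1 (n + 1) c • cons x y) = 0
      simp only [tr1_cons, hV]
      rw [← map_sum, hξ, map_zero]
    · by_contra h
      have : ‖V‖ = 0 := le_antisymm (not_lt.1 h) (norm_nonneg _)
      rw [this] at hVn
      linarith
    · rw [hsum]
      have : ∀ x, ∑ y, ‖v (gen i a) (V (cons x y)) - V (gen i a • cons x y)‖ ^ 2 ≤ 1 / 100 := by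
        intro x
        have t : ∀ y, ‖v (gen i a) (V (cons x y)) - V (gen i a • cons x y)‖ ^ 2
            ≤ 2 * (1 / 10 ^ 10) ^ 2 * ‖ξ y‖ ^ 2
              + 8 * ‖v (resG i a x) (ξ y) - ξ (resG i a x • y)‖ ^ 2 := by
          intro y
          rw [resG_spec, hV, hV]
          have e : v (gen i a) (A x (ξ y)) - A (outL i a x) (ξ (resG i a x • y))
              = (v (gen i a) * A x - A (outL i a x) * v (resG i a x)) (ξ y)
                + A (outL i a x) (v (resG i a x) (ξ y) - ξ (resG i a x • y)) := by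
            simp
          have t1 : ‖(v (gen i a) * A x - A (outL i a x) * v (resG i a x)) (ξ y)‖
              ≤ 1 / 10 ^ 10 * ‖ξ y‖ := (ContinuousLinearMap.le_opNorm _ _).trans
            (mul_le_mul_of_nonneg_right (hrel i a x) (norm_nonneg _))
          have t2 := hA2 (outL i a x) (v (resG i a x) (ξ y) - ξ (resG i a x • y))
          have t3 := pow_le_pow_left₀ (norm_nonneg _) ((norm_add_le _ _).trans (add_le_add t1 t2)) 2
          rw [e]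
          nlinarith [sq_nonneg (1 / 10 ^ 10 * ‖ξ y‖
            - 2 * ‖v (resG i a x) (ξ y) - ξ (resG i a x • y)‖)]
        refine (Finset.sum_le_sum (fun y _ => t y)).trans ?_
        rw [Finset.sum_add_distrib, ← Finset.mul_sum, ← Finset.mul_sum, hξn]
        linarith [hres i a x]
      refine (Finset.sum_le_sum (fun x _ => this x)).trans ?_
      rw [Finset.sum_const, Finset.card_univ, nsmul_eq_mul]
      linarith

theorem approx_false {B : Type*} [CStarAlgebra B] {s₁ s₂ : B} (hc : IsCuntzPair s₁ s₂)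
    (ρ : B →⋆ₐ[ℂ] (H →L[ℂ] H)) (u : Gr → B) (h1 : u 1 = 1) (hs : ∀ g, star (u g) = u g⁻¹)
    (hm : ∀ g ∈ Dom, ∀ h ∈ Dom, ‖u g * u h - u (g * h)‖ ≤ 1 / 10 ^ 10)
    (A : Alph → B) (hA : ∀ x, ‖star (A x) * A x - 1‖ ≤ 1 / 10 ^ 10)
    (hrel : ∀ i a x, ‖u (gen i a) * A x - A (outL i a x) * u (resG i a x)‖ ≤ 1 / 10 ^ 10)
    (η₀ : PiLp 2 (fun _ : L 1 => H)) (hη₀ : η₀ ∈ Wsub H 0) (hn₀ : 0 < ‖η₀‖)
    (hb : ∀ i a, ∑ y, ‖ρ (u (gen i a)) (η₀ y) - η₀ (gen i a • y)‖ ^ 2 ≤ ‖η₀‖ ^ 2 / 16) :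
    False := by
  have hρ : ∀ x, ‖ρ x‖ ≤ ‖x‖ := fun x => NonUnitalStarAlgHom.norm_apply_le ρ x
  choose η hη hn hd using all_levels (fun g => ρ (u g)) (by simp [h1])
    (fun g => by rw [← map_star, hs])
    (fun g hg h hh => by rw [← map_mul, ← map_sub]; exact (hρ _).trans (hm g hg h hh))
    (fun x => ρ (A x))
    (fun x => by rw [← map_star, ← map_mul, ← map_one ρ, ← map_sub]; exact (hρ _).trans (hA x))
    (fun i a x => by rw [← map_mul, ← map_mul, ← map_sub]; exact (hρ _).trans (hrel i a x))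
    η₀ hη₀ hn₀ hb
  obtain ⟨m, J, hJ, hγ⟩ := cuntz_approx hc ρ (fun t : Fin 4 × F => u (gen t.1 t.2))
    (δ := 1 / 100) (by norm_num)
  set M := 2 * Fintype.card (Wd m) + 1 with hM
  have key : ∀ (i : Fin 4) (a : F) (γ : Matrix (Wd m) (Wd m) ℂ),
      (∀ ξ, ‖J (ρ (u (gen i a)) ξ) - mat γ (J ξ)‖ ≤ 1 / 100 * ‖ξ‖) →
      ∑ l : (Σ j : Fin M, L (j + 1)), ∑ k, ‖J (η (gen i a • l).1 (gen i a • l).2) k
        - ∑ j, γ j k • J (η l.1 l.2) j‖ ^ 2 ≤ M / 100 := by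
    intro i a γ h
    rw [Fintype.sum_sigma]
    have : ∀ j : Fin M, ∑ y : L (j + 1), ∑ k, ‖J (η j (gen i a • y)) k
        - ∑ j', γ j' k • J (η j y) j'‖ ^ 2 ≤ 1 / 100 := by
      intro j
      have t : ∀ y : L (j + 1), ∑ k, ‖J (η j (gen i a • y)) k - ∑ j', γ j' k • J (η j y) j'‖ ^ 2
          ≤ 2 * ‖ρ (u (gen i a)) (η j y) - η j (gen i a • y)‖ ^ 2
            + 2 * (1 / 100) ^ 2 * ‖η j y‖ ^ 2 := by
        intro y
        have e1 : ∑ k, ‖J (η j (gen i a • y)) k - ∑ j', γ j' k • J (η j y) j'‖ ^ 2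
            = ‖J (η j (gen i a • y)) - mat γ (J (η j y))‖ ^ 2 := by
          rw [PiLp.norm_sq_eq_of_L2]
          rfl
        have e2 : J (η j (gen i a • y)) - mat γ (J (η j y))
            = -J (ρ (u (gen i a)) (η j y) - η j (gen i a • y))
              + (J (ρ (u (gen i a)) (η j y)) - mat γ (J (η j y))) := by
          rw [map_sub]; abel
        have t1 := (norm_add_le (-J (ρ (u (gen i a)) (η j y) - η j (gen i a • y))) _).trans
          (add_le_add_right (h (η j y)) _)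
        rw [norm_neg, hJ, ← e2] at t1
        have t3 := pow_le_pow_left₀ (norm_nonneg _) t1 2
        rw [e1]
        nlinarith [sq_nonneg (1 / 100 * ‖η j y‖
          - ‖ρ (u (gen i a)) (η j y) - η j (gen i a • y)‖)]
      refine (Finset.sum_le_sum (fun y _ => t y)).trans ?_
      rw [Finset.sum_add_distrib, ← Finset.mul_sum, ← Finset.mul_sum, ← PiLp.norm_sq_eq_of_L2, hn]
      linarith [hd j i a]
    refine (Finset.sum_le_sum (fun j _ => this j)).trans ?_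
    rw [Finset.sum_const, Finset.card_univ, Fintype.card_fin, nsmul_eq_mul]
    linarith
  refine pack_hilbert (Λ := Σ j : Fin M, L (j + 1)) gens (fun l => l.1) (fun _ _ => rfl)
    (fun j c => tr1 j c) (fun P hP j c => tr1_mem P hP j c) ?_
    (fun k l => J (η l.1 l.2) k) ?_ ?_ ?_ (by omega) (by omega)
  · rintro j c ⟨j', y⟩ h
    rw [Sigma.smul_mk, tr1_triv (Nat.succ_le_of_lt h)]
  · rintro k ⟨j, y⟩
    change ∑ c, J (η j (tr1 j c • y)) k = 0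
    have : ∑ c, J (η j (tr1 j c • y)) = 0 := by rw [← map_sum, hη, map_zero]
    have h := congrArg (fun z : PiLp 2 (fun _ : Wd m => H) => z k) this
    simpa using h
  · intro j
    rw [Fintype.sum_sigma, Finset.sum_eq_single j (fun j' _ hj => by simp [hj]) (by simp)]
    simp only [if_true, ← PiLp.norm_sq_eq_of_L2, hJ, hn, one_pow]
  · intro i a
    obtain ⟨γ, g1, g2⟩ := hγ (i, a)
    refine ⟨γ, key i a γ g1, ?_⟩
    rw [← gens.x_neg]
    refine key i (-a) γᴴ (fun ξ => ?_)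
    have := g2 ξ
    rwa [hs, ← gens_x, ← gens.x_neg] at this

end Vale.Agent.P083
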