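import Vale.Agent.P083.Transfer

/-! The counterexample: operators on the Hilbert space of the rooted tree. -/

open scoped InnerProductSpace

namespace Vale.Agent.P083

universe u

/-- Vertices of the tree. -/
abbrev Tree : Type := Σ n, L n

/-- The Hilbert space of the tree. -/
abbrev HT : Type := lp (fun _ : Tree => ℂ) 2

open Classical in
/-- Basis vectors. -/
noncomputable def dl (t : Tree) : HT := lp.single 2 t 1

open Classical in
lemma inner_dl (t t' : Tree) : ⟪dl t, dl t'⟫_ℂ = if t = t' then 1 else 0 := by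
  unfold dl
  rw [lp.inner_single_left, lp.single_apply, Pi.single_apply]
  split_ifs <;> simp

lemma orth_dl {f : Tree → Tree} (hf : Function.Injective f) : Orthonormal ℂ (fun t => dl (f t)) := by
  classical
  rw [orthonormal_iff_ite]
  intro i j
  rw [inner_dl]
  simp [hf.eq_iff]

/-- The isometry induced by an injection. -/
noncomputable def sOp (f : Tree → Tree) (hf : Function.Injective f) : HT →L[ℂ] HT :=
  (orth_dl hf).orthogonalFamily.linearIsometry.toContinuousLinearMap

lemma sOp_dl (f : Tree → Tree) (hf : Function.Injective f) (t : Tree) :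
    sOp f hf (dl t) = dl (f t) := by
  classical
  have := (orth_dl hf).orthogonalFamily.linearIsometry_apply_single (i := t) (1 : ℂ)
  simp only [LinearIsometry.toSpanSingleton_apply, one_smul] at this
  exact this

lemma op_ext {S T : HT →L[ℂ] HT} (h : ∀ t, S (dl t) = T (dl t)) : S = T := by
  classical
  refine lp.ext_continuousLinearMap (by simp) (fun t => ?_)
  ext1
  exact h t

lemma sOp_iso (f : Tree → Tree) (hf : Function.Injective f) : star (sOp f hf) * sOp f hf = 1 :=
  LinearIsometry.adjoint_comp_self _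

/-- Permutation operators. -/
noncomputable def uOp (g : Gr) : HT →L[ℂ] HT := sOp (fun t => g • t) (MulAction.injective g)

lemma uOp_dl (g : Gr) (t : Tree) : uOp g (dl t) = dl (g • t) := sOp_dl _ _ _

lemma uOp_one : uOp 1 = 1 := op_ext fun t => by rw [uOp_dl, one_smul]; rfl

lemma uOp_mul (g h : Gr) : uOp g * uOp h = uOp (g * h) := op_ext fun t => by
  rw [mul_apply_eq_comp, uOp_dl, uOp_dl, uOp_dl, mul_smul]

lemma uOp_star (g : Gr) : star (uOp g) = uOp g⁻¹ := by
  have h : star (uOp g) * uOp g = 1 := sOp_iso _ _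
  rw [← mul_one (star (uOp g)), ← uOp_one, ← mul_inv_cancel g, ← uOp_mul, ← mul_assoc, h, one_mul]

lemma cons_inj (x : Alph) : Function.Injective (fun t : Tree => (⟨t.1 + 1, cons x t.2⟩ : Tree)) := by
  rintro ⟨n, y⟩ ⟨n', y'⟩ h
  simp only [Sigma.mk.injEq, add_left_inj] at h
  obtain ⟨rfl, h⟩ := h
  have h' : consEquiv n (x, y) = consEquiv n (x, y') := eq_of_heq h
  have := (consEquiv n).injective h'
  simp only [Prod.mk.injEq, true_and] at this
  rw [this]

/-- Shift operators. -/
noncomputable def aOp (x : Alph) : HT →L[ℂ] HT := sOp _ (cons_inj x)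

lemma aOp_dl (x : Alph) (n : ℕ) (y : L n) : aOp x (dl ⟨n, y⟩) = dl ⟨n + 1, cons x y⟩ :=
  sOp_dl _ _ _

/-- Rank-one operators. -/
noncomputable def rOp (y : L 1) : HT →L[ℂ] HT :=
  InnerProductSpace.rankOne ℂ (dl ⟨1, y⟩) (dl ⟨1, ⟨0, 0, 0⟩⟩)

/-- The finite generating set. -/
def genSet : Set (HT →L[ℂ] HT) := uOp '' Dom ∪ Set.range aOp ∪ Set.range rOp

/-- The counterexample algebra. -/
noncomputable def Alg : StarSubalgebra ℂ (HT →L[ℂ] HT) :=
  (StarAlgebra.adjoin ℂ genSet).topologicalClosure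

instance : IsClosed (Alg : Set (HT →L[ℂ] HT)) := StarSubalgebra.isClosed_topologicalClosure _

noncomputable instance : CStarAlgebra Alg := StarSubalgebra.cstarAlgebra Alg

lemma mem_Alg {x : HT →L[ℂ] HT} (hx : x ∈ genSet) : x ∈ Alg :=
  StarSubalgebra.le_topologicalClosure _ (StarAlgebra.subset_adjoin ℂ _ hx)

lemma closure_countable {M : Type*} [Monoid M] {s : Set M} (hs : s.Countable) :
    (Submonoid.closure s : Set M).Countable := by
  have := hs.to_subtype
  refine (Set.countable_range (fun l : List s => (l.map Subtype.val).prod)).mono ?_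
  intro x hx
  induction hx using Submonoid.closure_induction with
  | mem x hx => exact ⟨[⟨x, hx⟩], by simp⟩
  | one => exact ⟨[], by simp⟩
  | mul x y _ _ hx hy =>
    obtain ⟨l, rfl⟩ := hx
    obtain ⟨l', rfl⟩ := hy
    exact ⟨l ++ l', by simp⟩

lemma alg_sep : TopologicalSpace.SeparableSpace Alg := by
  have h0 : genSet.Finite :=
    (((Set.finite_range _).image _).union (Set.finite_range _)).union (Set.finite_range _)
  have h1 : (genSet ∪ star genSet).Countable := (h0.union h0.star).countable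
  have h2 := ((closure_countable h1).isSeparable.span (R := ℂ)).closure
  rw [← StarAlgebra.adjoin_eq_span] at h2
  exact h2.separableSpace

theorem alg_no_embed {B : Type u} [CStarAlgebra B] [Nontrivial B] {s₁ s₂ : B}
    (hc : IsCuntzPair s₁ s₂) (ω : Ultrafilter ℕ) (θ : Alg →⋆ₐ[ℂ] Ultrapower B ω) :
    ¬ Function.Injective θ := by
  classical
  let U : Gr → Alg := fun g => if h : uOp g ∈ Alg then ⟨uOp g, h⟩ else 0
  have hU : ∀ g, uOp g ∈ Alg → (U g : HT →L[ℂ] HT) = uOp g := fun g h => by simp [U, h]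
  have hD : ∀ g ∈ Dom, uOp g ∈ Alg := fun g hg => mem_Alg (Or.inl (Or.inl ⟨g, hg, rfl⟩))
  have hD2 : ∀ g ∈ Dom, ∀ h ∈ Dom, uOp (g * h) ∈ Alg := fun g hg h hh => by
    rw [← uOp_mul]; exact mul_mem (hD g hg) (hD h hh)
  refine no_embed U ?_ ?_ ?_ (fun x => ⟨aOp x, mem_Alg (Or.inl (Or.inr ⟨x, rfl⟩))⟩) ?_ ?_
    (fun y => ⟨rOp y, mem_Alg (Or.inr ⟨y, rfl⟩)⟩) ?_ ?_ hc θ
  · apply Subtype.ext
    rw [hU 1 (by rw [uOp_one]; exact one_mem _), uOp_one]
    rfl
  · intro g
    by_cases h : uOp g ∈ Alg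
    · have h' : uOp g⁻¹ ∈ Alg := by rw [← uOp_star]; exact star_mem h
      apply Subtype.ext
      rw [hU _ h', ← uOp_star, ← hU _ h]
      rfl
    · have h' : uOp g⁻¹ ∉ Alg := by
        intro h'
        apply h
        rw [← inv_inv g, ← uOp_star]
        exact star_mem h'
      simp [U, h, h']
  · intro g hg h hh
    apply Subtype.ext
    rw [hU _ (hD2 g hg h hh), ← uOp_mul, ← hU _ (hD g hg), ← hU _ (hD h hh)]
    rfl
  · intro x
    exact Subtype.ext (sOp_iso _ (cons_inj x))
  · intro i c x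
    apply Subtype.ext
    obtain ⟨i₁, a₁, i₂, a₂, e⟩ := resG_eq i c x
    have h2 : uOp (resG i c x) ∈ Alg := by
      rw [e]; exact hD2 _ (gens.x_mem _ _) _ (gens.x_mem _ _)
    change (U (gen i c) : HT →L[ℂ] HT) * aOp x = aOp (outL i c x) * (U (resG i c x) : HT →L[ℂ] HT)
    rw [hU (gen i c) (hD _ (gens.x_mem i c)), hU _ h2]
    refine op_ext ?_
    rintro ⟨n, y⟩
    rw [mul_apply_eq_comp, mul_apply_eq_comp, aOp_dl, uOp_dl, uOp_dl, Sigma.smul_mk, Sigma.smul_mk,
      aOp_dl, resG_spec]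
  · intro i c y
    apply Subtype.ext
    change (U (gen i c) : HT →L[ℂ] HT) * rOp y = rOp (gen i c • y)
    rw [hU (gen i c) (hD _ (gens.x_mem i c)), rOp, ContinuousLinearMap.mul_def,
      InnerProductSpace.comp_rankOne, uOp_dl]
    rfl
  · intro h
    have h1 := congrArg (fun z : Alg =>
      ⟪dl ⟨1, ⟨0, 0, 0⟩⟩, (z : HT →L[ℂ] HT) (dl ⟨1, ⟨0, 0, 0⟩⟩)⟫_ℂ) h
    have h2 : ∀ y : L 1, ⟪dl ⟨1, ⟨0, 0, 0⟩⟩, rOp y (dl ⟨1, ⟨0, 0, 0⟩⟩)⟫_ℂ
        = if y = ⟨0, 0, 0⟩ then 1 else 0 := by
      intro y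
      rw [rOp, InnerProductSpace.rankOne_apply, inner_smul_right, inner_dl, inner_dl]
      simp [eq_comm]
    simp only [AddSubgroupClass.coe_sub, SetLike.val_smul, AddSubmonoidClass.coe_finsetSum,
      sub_apply, smul_apply, sum_apply, inner_sub_right, inner_smul_right, inner_sum, h2,
      tr1_fix, Finset.sum_ite_eq', Finset.mem_univ, if_true] at h1
    norm_num at h1

end Vale.Agent.P083
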