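import Vale.Agent.P083.Gap

/-! The finite-dimensional packing argument. -/

open scoped InnerProductSpace ComplexConjugate
open RCLike

namespace Vale.Agent.P083

section Tens

variable {G L H : Type*} [Group G] [MulAction G L] [Fintype L]
  [NormedAddCommGroup H] [InnerProductSpace ℂ H] [CompleteSpace H]

/-- Tensor product of an approximate representation with a permutation representation. -/
noncomputable def tensRep {D : Set G} {ε : ℝ} (hε : 0 ≤ ε) (L : Type*) [MulAction G L] [Fintype L]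
    (u : G → H →L[ℂ] H) (h1 : u 1 = 1) (hs : ∀ g, star (u g) = u g⁻¹)
    (hm : ∀ g ∈ D, ∀ h ∈ D, ‖u g * u h - u (g * h)‖ ≤ ε) :
    ARep G (PiLp 2 (fun _ : L => H)) D ε where
  U g :=
    { toFun := fun ξ => WithLp.toLp 2 (fun y => u g (ξ (g⁻¹ • y)))
      map_add' := fun ξ η => by ext y; simp
      map_smul' := fun c ξ => by ext y; simp }
  one ξ := by ext y; simp [h1]
  sym g ξ η := by
    simp only [PiLp.inner_apply, LinearMap.coe_mk, AddHom.coe_mk, inv_inv]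
    refine Fintype.sum_equiv (MulAction.toPerm g⁻¹) _ _ (fun y => ?_)
    rw [← hs, ContinuousLinearMap.star_eq_adjoint, ContinuousLinearMap.adjoint_inner_right]
    simp
  mul g hg h hh ξ := by
    apply abs_le_of_sq_le_sq' _ (by positivity) |>.2
    rw [mul_pow, PiLp.norm_sq_eq_of_L2, PiLp.norm_sq_eq_of_L2, Finset.mul_sum,
      ← Fintype.sum_equiv (MulAction.toPerm (g * h)⁻¹) (fun y => ε ^ 2 * ‖ξ ((g * h)⁻¹ • y)‖ ^ 2)
        (fun y => ε ^ 2 * ‖ξ y‖ ^ 2) (fun y => rfl)]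
    refine Finset.sum_le_sum (fun y _ => ?_)
    rw [← mul_pow]
    refine pow_le_pow_left₀ (norm_nonneg _) ?_ 2
    have : (u g * u h - u (g * h)) (ξ ((g * h)⁻¹ • y))
        = u g (u h (ξ (h⁻¹ • g⁻¹ • y))) - u (g * h) (ξ ((g * h)⁻¹ • y)) := by
      simp [mul_smul]
    change ‖u g (u h (ξ (h⁻¹ • g⁻¹ • y))) - u (g * h) (ξ ((g * h)⁻¹ • y))‖ ≤ _
    rw [← this]
    exact (ContinuousLinearMap.le_opNorm _ _).trans
      (mul_le_mul_of_nonneg_right (hm g hg h hh) (norm_nonneg _))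

lemma tensRep_apply {D : Set G} {ε : ℝ} (hε : 0 ≤ ε)
    (u : G → H →L[ℂ] H) (h1 : u 1 = 1) (hs : ∀ g, star (u g) = u g⁻¹)
    (hm : ∀ g ∈ D, ∀ h ∈ D, ‖u g * u h - u (g * h)‖ ≤ ε) (g : G) (ξ : PiLp 2 (fun _ : L => H))
    (y : L) : (tensRep hε L u h1 hs hm).U g ξ y = u g (ξ (g⁻¹ • y)) := rfl

/-- The permutation representation. -/
noncomputable def permRep (G L : Type*) [Group G] [MulAction G L] [Fintype L] (D : Set G) :
    ARep G (EuclideanSpace ℂ L) D 0 :=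
  tensRep le_rfl L (fun _ => 1) rfl (fun _ => star_one _) (fun _ _ _ _ => by simp)

lemma permRep_apply (D : Set G) (g : G) (ξ : EuclideanSpace ℂ L) (y : L) :
    (permRep G L D).U g ξ y = ξ (g⁻¹ • y) := rfl

lemma permRep_norm (D : Set G) (g : G) (ξ : EuclideanSpace ℂ L) :
    ‖(permRep G L D).U g ξ‖ = ‖ξ‖ := by
  rw [EuclideanSpace.norm_eq, EuclideanSpace.norm_eq]
  congr 1
  exact Fintype.sum_equiv (MulAction.toPerm g⁻¹) _ _ (fun y => rfl)

end Tens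

section Core

variable {K I : Type*} [NormedAddCommGroup K] [InnerProductSpace ℂ K] [Fintype I]

lemma best_approx {e : I → K} (he : Orthonormal ℂ e) (y : K) (c : I → ℂ) :
    ‖y‖ ^ 2 - ∑ j, ‖⟪e j, y⟫_ℂ‖ ^ 2 ≤ ‖y - ∑ j, c j • e j‖ ^ 2 := by
  have h1 : ‖∑ j, c j • e j‖ ^ 2 = ∑ j, ‖c j‖ ^ 2 := by
    rw [← re_inner_self_eq, he.inner_sum, map_sum]
    refine Finset.sum_congr rfl (fun j _ => ?_)
    rw [RCLike.conj_mul, ← RCLike.ofReal_pow, RCLike.ofReal_re]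
  have h2 : re ⟪y, ∑ j, c j • e j⟫_ℂ ≤ ∑ j, ‖c j‖ * ‖⟪e j, y⟫_ℂ‖ := by
    rw [inner_sum, map_sum]
    refine Finset.sum_le_sum (fun j _ => ?_)
    rw [inner_smul_right, norm_inner_symm (e j) y, ← norm_mul]
    exact re_le_norm _
  have h3 : 2 * ∑ j, ‖c j‖ * ‖⟪e j, y⟫_ℂ‖ ≤ ∑ j, ‖c j‖ ^ 2 + ∑ j, ‖⟪e j, y⟫_ℂ‖ ^ 2 := by
    rw [Finset.mul_sum, ← Finset.sum_add_distrib]
    exact Finset.sum_le_sum (fun j _ => by nlinarith [sq_nonneg (‖c j‖ - ‖⟪e j, y⟫_ℂ‖)])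
  rw [norm_sub_sq (𝕜 := ℂ), h1]
  linarith

lemma scalar_core {a b : ℝ} (ha : 0 < a) (hb : 0 < b) (v g A B : ℂ)
    (hA : A = a * v - g * b) (hB : B = b * v - g * a) :
    (a - b) ^ 2 * ‖v‖ ^ 2 ≤ ‖A‖ ^ 2 + ‖B‖ ^ 2 := by
  have h1 : ((a + b : ℝ) : ℂ) * (((a - b : ℝ) : ℂ) * v) = a * A - b * B := by
    rw [hA, hB]; push_cast; ring
  have h2 : (a + b) * (|a - b| * ‖v‖) ≤ a * ‖A‖ + b * ‖B‖ := by
    have := congrArg norm h1
    rw [norm_mul, norm_mul, Complex.norm_real, Complex.norm_real, Real.norm_eq_abs,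
      Real.norm_eq_abs, abs_of_pos (by linarith)] at this
    rw [this]
    refine (norm_sub_le _ _).trans ?_
    rw [norm_mul, norm_mul, Complex.norm_real, Complex.norm_real, Real.norm_eq_abs,
      Real.norm_eq_abs, abs_of_pos ha, abs_of_pos hb]
  have h3 : |a - b| * ‖v‖ ≤ max ‖A‖ ‖B‖ := by
    apply le_of_mul_le_mul_left _ (show 0 < a + b by linarith)
    have := le_max_left ‖A‖ ‖B‖
    have := le_max_right ‖A‖ ‖B‖
    nlinarith
  have h4 : (|a - b| * ‖v‖) ^ 2 ≤ (max ‖A‖ ‖B‖) ^ 2 := pow_le_pow_left₀ (by positivity) h3 2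
  rw [mul_pow, sq_abs] at h4
  refine h4.trans ?_
  rcases le_total ‖A‖ ‖B‖ with h | h
  · rw [max_eq_right h]; nlinarith [sq_nonneg ‖A‖]
  · rw [max_eq_left h]; nlinarith [sq_nonneg ‖B‖]

lemma core {e : I → K} (he : Orthonormal ℂ e) (d : I → ℝ) (hd : ∀ i, 0 < d i)
    (v w : K →ₗ[ℂ] K) (hvw : ∀ α β, ⟪v α, β⟫_ℂ = ⟪α, w β⟫_ℂ)
    (hv : ∀ α, ‖v α‖ = ‖α‖) (hw : ∀ α, ‖w α‖ = ‖α‖) (γ : I → I → ℂ) :
    ∑ i, d i ^ 2 - (∑ k, ‖w ((d k : ℂ) • e k) - ∑ j, γ j k • ((d j : ℂ) • e j)‖ ^ 2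
      + ∑ k, ‖v ((d k : ℂ) • e k) - ∑ j, conj (γ k j) • ((d j : ℂ) • e j)‖ ^ 2)
      ≤ ∑ i, ∑ j, d i * d j * ‖⟪e j, v (e i)⟫_ℂ‖ ^ 2 := by
  set r1 : I → K := fun k => w ((d k : ℂ) • e k) - ∑ j, γ j k • ((d j : ℂ) • e j) with hr1
  set r2 : I → K := fun k => v ((d k : ℂ) • e k) - ∑ j, conj (γ k j) • ((d j : ℂ) • e j) with hr2
  have nd : ∀ i (z : ℂ), ‖(d i : ℂ) * z‖ ^ 2 = d i ^ 2 * ‖z‖ ^ 2 := by
    intro i z
    rw [norm_mul, mul_pow, Complex.norm_real, Real.norm_eq_abs, sq_abs]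
  have ne : ∀ i, ‖(d i : ℂ) • e i‖ ^ 2 = d i ^ 2 := by
    intro i
    rw [norm_smul, he.norm_eq_one, mul_one, Complex.norm_real, Real.norm_eq_abs, sq_abs]
  have hwv : ∀ i j, ⟪e i, w (e j)⟫_ℂ = conj ⟪e j, v (e i)⟫_ℂ := by
    intro i j
    rw [← hvw, inner_conj_symm]
  have b2 : ∀ i, d i ^ 2 - ∑ j, d i ^ 2 * ‖⟪e j, v (e i)⟫_ℂ‖ ^ 2 ≤ ‖r2 i‖ ^ 2 := by
    intro i
    have := best_approx he (v ((d i : ℂ) • e i)) (fun j => conj (γ i j) * d j)
    rw [hv, ne] at this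
    simpa only [hr2, map_smul, inner_smul_right, nd, smul_smul] using this
  have b1 : ∀ j, d j ^ 2 - ∑ i, d j ^ 2 * ‖⟪e j, v (e i)⟫_ℂ‖ ^ 2 ≤ ‖r1 j‖ ^ 2 := by
    intro j
    have := best_approx he (w ((d j : ℂ) • e j)) (fun i => γ i j * d i)
    rw [hw, ne] at this
    simpa only [hr1, map_smul, inner_smul_right, nd, smul_smul, hwv, RCLike.norm_conj] using this
  have c : ∀ i j, (d i - d j) ^ 2 * ‖⟪e j, v (e i)⟫_ℂ‖ ^ 2
      ≤ ‖⟪e j, r2 i⟫_ℂ‖ ^ 2 + ‖⟪e i, r1 j⟫_ℂ‖ ^ 2 := by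
    intro i j
    rw [← RCLike.norm_conj ⟪e i, r1 j⟫_ℂ]
    refine scalar_core (hd i) (hd j) _ (conj (γ i j)) _ _ ?_ ?_
    · simp only [hr2, inner_sub_right, map_smul, inner_smul_right, smul_smul,
        he.inner_right_fintype]
    · simp only [hr1, inner_sub_right, map_smul, inner_smul_right, smul_smul,
        he.inner_right_fintype, hwv, map_sub, map_mul, Complex.conj_ofReal, Complex.conj_conj]
  have s2 : ∑ i, ∑ j, ‖⟪e j, r2 i⟫_ℂ‖ ^ 2 ≤ ∑ i, ‖r2 i‖ ^ 2 :=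
    Finset.sum_le_sum (fun i _ => he.sum_inner_products_le _)
  have s1 : ∑ i, ∑ j, ‖⟪e i, r1 j⟫_ℂ‖ ^ 2 ≤ ∑ j, ‖r1 j‖ ^ 2 := by
    rw [Finset.sum_comm]
    exact Finset.sum_le_sum (fun i _ => he.sum_inner_products_le _)
  have t2 := Finset.sum_le_sum (fun i (_ : i ∈ Finset.univ) => b2 i)
  have t1 := Finset.sum_le_sum (fun i (_ : i ∈ Finset.univ) => b1 i)
  have t3 := Finset.sum_le_sum (fun i (_ : i ∈ Finset.univ) =>
    Finset.sum_le_sum (fun j (_ : j ∈ Finset.univ) => c i j))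
  rw [Finset.sum_sub_distrib] at t1 t2
  rw [Finset.sum_comm] at t1
  simp only [Finset.sum_add_distrib] at t3
  have t4 : ∑ i, ∑ j, (d i - d j) ^ 2 * ‖⟪e j, v (e i)⟫_ℂ‖ ^ 2
      = ∑ i, ∑ j, d i ^ 2 * ‖⟪e j, v (e i)⟫_ℂ‖ ^ 2 + ∑ i, ∑ j, d j ^ 2 * ‖⟪e j, v (e i)⟫_ℂ‖ ^ 2
        - 2 * ∑ i, ∑ j, d i * d j * ‖⟪e j, v (e i)⟫_ℂ‖ ^ 2 := by
    simp only [Finset.mul_sum, ← Finset.sum_add_distrib, ← Finset.sum_sub_distrib]
    refine Finset.sum_congr rfl (fun i _ => Finset.sum_congr rfl (fun j _ => by ring))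
  linarith

lemma hs_inv {E₀ J : Type*} [NormedAddCommGroup E₀] [InnerProductSpace ℂ E₀]
    [FiniteDimensional ℂ E₀] [FiniteDimensional ℂ K] [Fintype J]
    (b : OrthonormalBasis I ℂ E₀) (b' : OrthonormalBasis J ℂ E₀) (R : E₀ →ₗ[ℂ] K) :
    ∑ k, ‖R (b k)‖ ^ 2 = ∑ k, ‖R (b' k)‖ ^ 2 := by
  have h1 := LinearMap.trace_eq_sum_inner (LinearMap.adjoint R ∘ₗ R) b
  have h2 := LinearMap.trace_eq_sum_inner (LinearMap.adjoint R ∘ₗ R) b'
  have h3 := congrArg re (h1.symm.trans h2)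
  simpa only [map_sum, LinearMap.comp_apply, LinearMap.adjoint_inner_right, re_inner_self_eq]
    using h3

end Core

section Pack

variable {G Λ : Type*} [Group G] [MulAction G Λ] [Fintype Λ] {D : Set G}

/-- Rank-one kernel. -/
noncomputable def tens (α β : EuclideanSpace ℂ Λ) : EuclideanSpace ℂ (Λ × Λ) :=
  WithLp.toLp 2 (fun p => α p.1 * conj (β p.2))

lemma inner_tens (α β α' β' : EuclideanSpace ℂ Λ) :
    ⟪tens α β, tens α' β'⟫_ℂ = ⟪α, α'⟫_ℂ * conj ⟪β, β'⟫_ℂ := by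
  simp only [PiLp.inner_apply, tens, map_sum, Finset.sum_mul_sum, Fintype.sum_prod_type,
    RCLike.inner_apply, map_mul, Complex.conj_conj]
  exact Finset.sum_congr rfl (fun _ _ => Finset.sum_congr rfl (fun _ _ => by ring))

theorem pack_orth (S : Gens G D) {M : ℕ} (lev : Λ → Fin M)
    (hlev : ∀ (g : G) l, lev (g • l) = lev l) (κ : Fin M → F → G)
    (hκ : ∀ P : Subgroup G, (∀ i a, S.x i a ∈ P) → ∀ j c, κ j c ∈ P)
    (htriv : ∀ j c l, lev l < j → κ j c • l = l)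
    {I : Type*} [Fintype I] (e : I → EuclideanSpace ℂ Λ) (he : Orthonormal ℂ e)
    (d : I → ℝ) (hd : ∀ i, 0 < d i)
    (hz : ∀ i l, ∑ c, e i (κ (lev l) c • l) = 0)
    (hn : ∀ j, ∑ l, (if lev l = j then ∑ i, ‖((d i : ℂ) • e i) l‖ ^ 2 else 0) = 1)
    (herr : ∀ i a, ∃ γ : I → I → ℂ,
      ∑ k, ‖(permRep G Λ D).U (S.x i a)⁻¹ ((d k : ℂ) • e k)
        - ∑ j, γ j k • ((d j : ℂ) • e j)‖ ^ 2 ≤ M / 100 ∧
      ∑ k, ‖(permRep G Λ D).U (S.x i a) ((d k : ℂ) • e k)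
        - ∑ j, conj (γ k j) • ((d j : ℂ) • e j)‖ ^ 2 ≤ M / 100)
    (hM : 2 * Fintype.card I ≤ M) (hM0 : 0 < M) : False := by
  classical
  set X : EuclideanSpace ℂ (Λ × Λ) := ∑ i, (d i : ℂ) • tens (e i) (e i) with hX
  have hXp : ∀ p : Λ × Λ, X p = ∑ i, (d i : ℂ) * (e i p.1 * conj (e i p.2)) := by
    intro p
    simp [hX, tens]
  have hd2 : ∑ i, d i ^ 2 = M := by
    have h1 : ∑ j : Fin M, ∑ l, (if lev l = j then ∑ i, ‖((d i : ℂ) • e i) l‖ ^ 2 else 0) = M := by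
      simp only [hn]
      simp
    rw [Finset.sum_comm] at h1
    simp only [Finset.sum_ite_eq, Finset.mem_univ, if_true] at h1
    rw [Finset.sum_comm] at h1
    rw [← h1]
    refine Finset.sum_congr rfl (fun i _ => ?_)
    rw [← PiLp.norm_sq_eq_of_L2, norm_smul, he.norm_eq_one, mul_one, Complex.norm_real,
      Real.norm_eq_abs, sq_abs]
  have hin : ∀ g : G, re ⟪X, (permRep G (Λ × Λ) D).U g X⟫_ℂ
      = ∑ i, ∑ j, d i * d j * ‖⟪e j, (permRep G Λ D).U g (e i)⟫_ℂ‖ ^ 2 := by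
    intro g
    have h1 : ∀ i, (permRep G (Λ × Λ) D).U g (tens (e i) (e i))
        = tens ((permRep G Λ D).U g (e i)) ((permRep G Λ D).U g (e i)) := fun i => rfl
    rw [hX, map_sum, inner_sum, map_sum]
    refine Finset.sum_congr rfl (fun i _ => ?_)
    rw [map_smul, h1, sum_inner, map_sum]
    refine Finset.sum_congr rfl (fun j _ => ?_)
    rw [inner_smul_left, inner_smul_right, inner_tens, RCLike.mul_conj, Complex.conj_ofReal]
    simp only [RCLike.re_to_complex, Complex.coe_algebraMap]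
    rw [← Complex.ofReal_pow, ← Complex.ofReal_mul, ← Complex.ofReal_mul, Complex.ofReal_re]
    ring
  have hXn : ‖X‖ ^ 2 = M := by
    have h1 := hin 1
    simp only [ARep.one, re_inner_self_eq] at h1
    rw [h1, ← hd2]
    refine Finset.sum_congr rfl (fun i _ => ?_)
    rw [Finset.sum_eq_single i (fun j _ hj => by rw [he.inner_eq_zero hj]; simp) (by simp),
      inner_self_eq_norm_sq_to_K, he.norm_eq_one]
    simp [sq]
  have hdisp : ∀ i a, ‖(permRep G (Λ × Λ) D).U (S.x i a) X - X‖ ^ 2 ≤ M / 25 := by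
    intro i a
    obtain ⟨γ, h1, h2⟩ := herr i a
    have h3 := core he d hd ((permRep G Λ D).U (S.x i a)) ((permRep G Λ D).U (S.x i a)⁻¹)
      ((permRep G Λ D).sym _) (permRep_norm D _) (permRep_norm D _) γ
    rw [norm_sub_rev, norm_sub_sq (𝕜 := ℂ), permRep_norm, hXn, hin]
    linarith
  obtain ⟨X₀, hinv, horth, hdist⟩ := near_invariant S (permRep G (Λ × Λ) D) X
  have hdist' : ‖X - X₀‖ ^ 2 ≤ 4 * M / 25 := by
    have : ∑ i, ∑ a, ‖(permRep G (Λ × Λ) D).U (S.x i a) X - X‖ ^ 2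
        ≤ ∑ _i : Fin 4, ∑ _a : F, (M / 25 : ℝ) :=
      Finset.sum_le_sum (fun i _ => Finset.sum_le_sum (fun a _ => hdisp i a))
    simp only [Finset.sum_const, Finset.card_univ, card_F, Fintype.card_fin, nsmul_eq_mul] at this
    push_cast at this
    linarith
  let P : Subgroup G :=
    { carrier := {g | ∀ p : Λ × Λ, X₀ (g • p) = X₀ p}
      one_mem' := fun p => by rw [one_smul]
      mul_mem' := fun {g h} hg hh p => by rw [mul_smul, hg, hh]
      inv_mem' := fun {g} hg p => by rw [← hg (g⁻¹ • p), smul_inv_smul] }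
  have hP : ∀ j c, ∀ p : Λ × Λ, X₀ (κ j c • p) = X₀ p := by
    refine hκ P (fun i a => ?_)
    rw [← inv_mem_iff]
    intro p
    rw [← permRep_apply D, hinv]
  let Xd : EuclideanSpace ℂ (Λ × Λ) := WithLp.toLp 2 (fun p => if lev p.1 = lev p.2 then X p else 0)
  let Xo : EuclideanSpace ℂ (Λ × Λ) := WithLp.toLp 2 (fun p => if lev p.1 = lev p.2 then 0 else X p)
  have hsplit : X = Xd + Xo := by
    ext p
    simp only [Xd, Xo, PiLp.add_apply]
    split_ifs <;> simp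
  have hoff : ⟪X₀, Xo⟫_ℂ = 0 := by
    let σ : F → Λ × Λ → Λ × Λ := fun c p => κ (max (lev p.1) (lev p.2)) c • p
    have hσ1 : ∀ c p, lev (σ c p).1 = lev p.1 := fun c p => hlev _ _
    have hσ2 : ∀ c p, lev (σ c p).2 = lev p.2 := fun c p => hlev _ _
    have hσ : ∀ c, Function.Bijective (σ c) := by
      intro c
      rw [← Finite.injective_iff_bijective]
      intro p q hpq
      have e1 : lev p.1 = lev q.1 := by rw [← hσ1 c p, hpq, hσ1]
      have e2 : lev p.2 = lev q.2 := by rw [← hσ2 c p, hpq, hσ2]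
      simp only [σ, e1, e2] at hpq
      exact MulAction.injective _ hpq
    have h1 : ∀ c, ⟪X₀, Xo⟫_ℂ = ∑ p, Xo (σ c p) * conj (X₀ p) := by
      intro c
      rw [PiLp.inner_apply]
      refine (Fintype.sum_bijective (σ c) (hσ c) _ _ (fun p => ?_)).symm
      rw [RCLike.inner_apply, hP]
    have h2 : ∀ p, ∑ c, Xo (σ c p) = 0 := by
      intro p
      simp only [Xo, hσ1, hσ2]
      split_ifs with h
      · simp
      rcases lt_or_gt_of_ne h with h' | h'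
      · have e1 : ∀ c, (σ c p).1 = p.1 := fun c => by
          simp only [σ, max_eq_right h'.le]; exact htriv _ _ _ h'
        have e2 : ∀ c, (σ c p).2 = κ (lev p.2) c • p.2 := fun c => by
          simp only [σ, max_eq_right h'.le]; rfl
        simp only [hXp, e1, e2]
        rw [Finset.sum_comm]
        refine Finset.sum_eq_zero (fun i _ => ?_)
        rw [← Finset.mul_sum, ← Finset.mul_sum, ← map_sum, hz]
        simp
      · have e1 : ∀ c, (σ c p).2 = p.2 := fun c => by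
          simp only [σ, max_eq_left h'.le]; exact htriv _ _ _ h'
        have e2 : ∀ c, (σ c p).1 = κ (lev p.1) c • p.1 := fun c => by
          simp only [σ, max_eq_left h'.le]; rfl
        simp only [hXp, e1, e2]
        rw [Finset.sum_comm]
        refine Finset.sum_eq_zero (fun i _ => ?_)
        rw [← Finset.mul_sum, ← Finset.sum_mul, hz]
        simp
    have h3 : ∑ _c : F, ⟪X₀, Xo⟫_ℂ = 0 := by
      rw [Finset.sum_congr rfl (fun c _ => h1 c), Finset.sum_comm]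
      refine Finset.sum_eq_zero (fun p _ => ?_)
      rw [← Finset.sum_mul, h2, zero_mul]
    rw [Finset.sum_const, Finset.card_univ, card_F, nsmul_eq_mul] at h3
    exact (mul_eq_zero.1 h3).resolve_left (by norm_num)
  have hXd : ‖Xd‖ ^ 2 ≤ Fintype.card I := by
    have h1 : ∀ p : Λ × Λ, ‖Xd p‖ ^ 2 ≤ (if lev p.1 = lev p.2 then
        ∑ i, ‖((d i : ℂ) • e i) p.1‖ ^ 2 else 0) * ∑ i, ‖e i p.2‖ ^ 2 := by
      intro p
      simp only [Xd]
      split_ifs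
      · rw [hXp]
        refine le_trans ?_ (Finset.sum_mul_sq_le_sq_mul_sq _ _ _)
        refine pow_le_pow_left₀ (norm_nonneg _) ((norm_sum_le _ _).trans (le_of_eq ?_)) 2
        refine Finset.sum_congr rfl (fun i _ => ?_)
        rw [← mul_assoc, norm_mul, RCLike.norm_conj]
        rfl
      · simp
    rw [PiLp.norm_sq_eq_of_L2]
    refine (Finset.sum_le_sum (fun p _ => h1 p)).trans (le_of_eq ?_)
    rw [Fintype.sum_prod_type_right]
    simp only [← Finset.sum_mul, hn, one_mul]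
    rw [Finset.sum_comm]
    simp only [← PiLp.norm_sq_eq_of_L2, he.norm_eq_one]
    simp
  have h0 : ‖X₀‖ ^ 2 ≤ ‖X₀‖ * ‖Xd‖ := by
    have h1 : ⟪X₀, X - X₀⟫_ℂ = 0 := by rw [← inner_conj_symm, horth, map_zero]
    rw [inner_sub_right, sub_eq_zero, hsplit, inner_add_right, hoff, add_zero] at h1
    rw [← re_inner_self_eq, ← h1]
    exact re_inner_le_norm _ _
  have h0' : ‖X₀‖ ^ 2 ≤ ‖Xd‖ ^ 2 := by nlinarith [sq_nonneg (‖X₀‖ - ‖Xd‖)]
  have hpy : ‖X‖ ^ 2 = ‖X - X₀‖ ^ 2 + ‖X₀‖ ^ 2 := by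
    have := norm_add_sq (𝕜 := ℂ) (X - X₀) X₀
    rw [sub_add_cancel, horth] at this
    simpa using this
  have hM' : (2 * Fintype.card I : ℝ) ≤ M := by exact_mod_cast hM
  have hM0' : (0 : ℝ) < M := by exact_mod_cast hM0
  linarith

theorem pack_orth0 (S : Gens G D) {M : ℕ} (lev : Λ → Fin M)
    (hlev : ∀ (g : G) l, lev (g • l) = lev l) (κ : Fin M → F → G)
    (hκ : ∀ P : Subgroup G, (∀ i a, S.x i a ∈ P) → ∀ j c, κ j c ∈ P)
    (htriv : ∀ j c l, lev l < j → κ j c • l = l)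
    {I : Type*} [Fintype I] (ζ : I → EuclideanSpace ℂ Λ)
    (ho : ∀ i j, i ≠ j → ⟪ζ i, ζ j⟫_ℂ = 0)
    (hz : ∀ i l, ∑ c, ζ i (κ (lev l) c • l) = 0)
    (hn : ∀ j, ∑ l, (if lev l = j then ∑ i, ‖ζ i l‖ ^ 2 else 0) = 1)
    (herr : ∀ i a, ∃ γ : I → I → ℂ,
      ∑ k, ‖(permRep G Λ D).U (S.x i a)⁻¹ (ζ k) - ∑ j, γ j k • ζ j‖ ^ 2 ≤ M / 100 ∧
      ∑ k, ‖(permRep G Λ D).U (S.x i a) (ζ k) - ∑ j, conj (γ k j) • ζ j‖ ^ 2 ≤ M / 100)
    (hM : 2 * Fintype.card I ≤ M) (hM0 : 0 < M) : False := by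
  classical
  let I' := {i : I // ζ i ≠ 0}
  let d : I' → ℝ := fun i => ‖ζ i‖
  let e : I' → EuclideanSpace ℂ Λ := fun i => ((‖ζ i‖⁻¹ : ℝ) : ℂ) • ζ i
  have hd : ∀ i, 0 < d i := fun i => norm_pos_iff.2 i.2
  have hde : ∀ i, (d i : ℂ) • e i = ζ i := by
    intro i
    simp only [d, e]
    rw [smul_smul, ← Complex.ofReal_mul, mul_inv_cancel₀ (hd i).ne']
    simp
  have hsum : ∀ {A : Type} [AddCommMonoid A] (f : I → A), (∀ i, ζ i = 0 → f i = 0) →
      ∑ i : I', f i = ∑ i, f i := by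
    intro A _ f hf
    rw [← Finset.sum_subtype (Finset.univ.filter (fun i => ζ i ≠ 0)) (by simp)]
    refine Finset.sum_subset (Finset.filter_subset _ _) (fun i _ hi => hf i ?_)
    simpa using hi
  have hsum' : ∀ (f : I → EuclideanSpace ℂ Λ), (∀ i, ζ i = 0 → f i = 0) →
      ∑ i : I', f i = ∑ i, f i := by
    intro f hf
    rw [← Finset.sum_subtype (Finset.univ.filter (fun i => ζ i ≠ 0)) (by simp)]
    refine Finset.sum_subset (Finset.filter_subset _ _) (fun i _ hi => hf i ?_)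
    simpa using hi
  have hle : ∀ (f : I → ℝ), (∀ i, 0 ≤ f i) → ∑ i : I', f i ≤ ∑ i, f i := by
    intro f hf
    rw [← Finset.sum_subtype (Finset.univ.filter (fun i => ζ i ≠ 0)) (by simp)]
    exact Finset.sum_le_sum_of_subset_of_nonneg (Finset.filter_subset _ _) (fun i _ _ => hf i)
  refine pack_orth S lev hlev κ hκ htriv e ⟨fun i => ?_, fun i j hij => ?_⟩ d hd ?_ ?_ ?_ ?_ hM0
  · simp only [e]
    rw [norm_smul, Complex.norm_real, norm_inv, norm_norm, inv_mul_cancel₀ (hd i).ne']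
  · simp only [e]
    rw [inner_smul_left, inner_smul_right, ho _ _ (fun h => hij (Subtype.ext h))]
    simp
  · intro i l
    simp only [e, PiLp.smul_apply, ← Finset.smul_sum, hz, smul_zero]
  · intro j
    rw [← hn j]
    refine Finset.sum_congr rfl (fun l _ => ?_)
    simp only [hde]
    rw [hsum (fun i => ‖ζ i l‖ ^ 2) (fun i hi => by simp [hi])]
  · intro i a
    obtain ⟨γ, h1, h2⟩ := herr i a
    refine ⟨fun j k => γ j k, le_trans ?_ h1, le_trans ?_ h2⟩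
    · simp only [hde]
      refine le_trans (le_of_eq ?_) (hle _ (fun _ => by positivity))
      refine Finset.sum_congr rfl (fun k _ => ?_)
      rw [hsum' (fun j => γ j k • ζ j) (fun i hi => by simp [hi])]
    · simp only [hde]
      refine le_trans (le_of_eq ?_) (hle _ (fun _ => by positivity))
      refine Finset.sum_congr rfl (fun k _ => ?_)
      rw [hsum' (fun j => conj (γ k j) • ζ j) (fun i hi => by simp [hi])]
  · have := Fintype.card_subtype_le (fun i : I => ζ i ≠ 0)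
    simp only [I']
    omega

theorem pack (S : Gens G D) {M : ℕ} (lev : Λ → Fin M)
    (hlev : ∀ (g : G) l, lev (g • l) = lev l) (κ : Fin M → F → G)
    (hκ : ∀ P : Subgroup G, (∀ i a, S.x i a ∈ P) → ∀ j c, κ j c ∈ P)
    (htriv : ∀ j c l, lev l < j → κ j c • l = l)
    {I : Type*} [Fintype I] (ζ : I → EuclideanSpace ℂ Λ)
    (hz : ∀ i l, ∑ c, ζ i (κ (lev l) c • l) = 0)
    (hn : ∀ j, ∑ l, (if lev l = j then ∑ i, ‖ζ i l‖ ^ 2 else 0) = 1)
    (herr : ∀ i a, ∃ γ : I → I → ℂ,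
      ∑ k, ‖(permRep G Λ D).U (S.x i a)⁻¹ (ζ k) - ∑ j, γ j k • ζ j‖ ^ 2 ≤ M / 100 ∧
      ∑ k, ‖(permRep G Λ D).U (S.x i a) (ζ k) - ∑ j, conj (γ k j) • ζ j‖ ^ 2 ≤ M / 100)
    (hM : 2 * Fintype.card I ≤ M) (hM0 : 0 < M) : False := by
  classical
  let T : EuclideanSpace ℂ I →ₗ[ℂ] EuclideanSpace ℂ Λ :=
    { toFun := fun c => ∑ i, c i • ζ i
      map_add' := fun c c' => by simp [add_smul, Finset.sum_add_distrib]
      map_smul' := fun z c => by simp [Finset.smul_sum, smul_smul] }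
  have hT : ∀ c, T c = ∑ i, c i • ζ i := fun c => rfl
  let b₀ := EuclideanSpace.basisFun I ℂ
  have hb₀ : ∀ k, T (b₀ k) = ζ k := by
    intro k
    rw [hT, Finset.sum_eq_single k (fun j _ hj => by simp [b₀, hj]) (by simp)]
    simp [b₀]
  have hsymm : (LinearMap.adjoint T ∘ₗ T).IsSymmetric := by
    intro x y
    simp only [LinearMap.comp_apply, LinearMap.adjoint_inner_left, LinearMap.adjoint_inner_right]
  have hfin : Module.finrank ℂ (EuclideanSpace ℂ I) = Fintype.card I := finrank_euclideanSpace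
  let b := hsymm.eigenvectorBasis hfin
  refine pack_orth0 S lev hlev κ hκ htriv (fun k => T (b k)) ?_ ?_ ?_ ?_ (by simpa using hM) hM0
  · intro i j hij
    rw [← LinearMap.adjoint_inner_right]
    have := hsymm.apply_eigenvectorBasis hfin j
    rw [LinearMap.comp_apply] at this
    rw [this, inner_smul_right, b.orthonormal.inner_eq_zero hij, mul_zero]
  · intro k l
    simp only [hT, WithLp.ofLp_sum, Finset.sum_apply, PiLp.smul_apply]
    rw [Finset.sum_comm]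
    refine Finset.sum_eq_zero (fun i _ => ?_)
    rw [← Finset.smul_sum, hz, smul_zero]
  · intro j
    rw [← hn j]
    refine Finset.sum_congr rfl (fun l _ => ?_)
    have := hs_inv b b₀ ((EuclideanSpace.projₗ l : EuclideanSpace ℂ Λ →ₗ[ℂ] ℂ) ∘ₗ T)
    simp only [LinearMap.comp_apply, hb₀] at this
    congr 1
  · intro i a
    obtain ⟨γ, h1, h2⟩ := herr i a
    let Γ : EuclideanSpace ℂ I →ₗ[ℂ] EuclideanSpace ℂ I := Matrix.toEuclideanLin (Matrix.of γ)
    have g1 : ∀ k, T (Γ (b₀ k)) = ∑ j, γ j k • ζ j := by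
      intro k
      rw [hT]
      refine Finset.sum_congr rfl (fun j _ => ?_)
      simp [Γ, b₀]
    have g2 : ∀ k, T (LinearMap.adjoint Γ (b₀ k)) = ∑ j, conj (γ k j) • ζ j := by
      intro k
      rw [hT, ← Matrix.toEuclideanLin_conjTranspose_eq_adjoint]
      refine Finset.sum_congr rfl (fun j _ => ?_)
      simp [b₀]
    refine ⟨fun j k => ⟪b j, Γ (b k)⟫_ℂ, le_trans (le_of_eq ?_) h1, le_trans (le_of_eq ?_) h2⟩
    · have := hs_inv b b₀ ((permRep G Λ D).U (S.x i a)⁻¹ ∘ₗ T - T ∘ₗ Γ)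
      simp only [LinearMap.sub_apply, LinearMap.comp_apply, hb₀, g1] at this
      rw [← this]
      refine Finset.sum_congr rfl (fun k _ => ?_)
      conv_rhs => rw [← b.sum_repr' (Γ (b k))]
      simp only [map_sum, map_smul]
    · have := hs_inv b b₀ ((permRep G Λ D).U (S.x i a) ∘ₗ T - T ∘ₗ LinearMap.adjoint Γ)
      simp only [LinearMap.sub_apply, LinearMap.comp_apply, hb₀, g2] at this
      rw [← this]
      refine Finset.sum_congr rfl (fun k _ => ?_)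
      conv_rhs => rw [← b.sum_repr' (LinearMap.adjoint Γ (b k))]
      simp only [map_sum, map_smul, LinearMap.adjoint_inner_right, inner_conj_symm]

/-- Points with an inert multiplicity index. -/
def Mult (Λ β : Type*) := Λ × β

instance {β : Type*} [Fintype β] : Fintype (Mult Λ β) := inferInstanceAs (Fintype (Λ × β))

instance {β : Type*} : MulAction G (Mult Λ β) where
  smul g p := (g • p.1, p.2)
  one_smul p := by
    change ((1 : G) • p.1, p.2) = p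
    rw [one_smul]; rfl
  mul_smul g h p := by
    change ((g * h) • p.1, p.2) = (g • h • p.1, p.2)
    rw [mul_smul]

theorem pack_hilbert (S : Gens G D) {M : ℕ} (lev : Λ → Fin M)
    (hlev : ∀ (g : G) l, lev (g • l) = lev l) (κ : Fin M → F → G)
    (hκ : ∀ P : Subgroup G, (∀ i a, S.x i a ∈ P) → ∀ j c, κ j c ∈ P)
    (htriv : ∀ j c l, lev l < j → κ j c • l = l)
    {H : Type*} [NormedAddCommGroup H] [InnerProductSpace ℂ H]
    {I : Type*} [Fintype I] (ζ : I → Λ → H)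
    (hz : ∀ i l, ∑ c, ζ i (κ (lev l) c • l) = 0)
    (hn : ∀ j, ∑ l, (if lev l = j then ∑ i, ‖ζ i l‖ ^ 2 else 0) = 1)
    (herr : ∀ i a, ∃ γ : I → I → ℂ,
      ∑ l, ∑ k, ‖ζ k (S.x i a • l) - ∑ j, γ j k • ζ j l‖ ^ 2 ≤ M / 100 ∧
      ∑ l, ∑ k, ‖ζ k ((S.x i a)⁻¹ • l) - ∑ j, conj (γ k j) • ζ j l‖ ^ 2 ≤ M / 100)
    (hM : 2 * Fintype.card I ≤ M) (hM0 : 0 < M) : False := by
  classical
  let H₀ : Submodule ℂ H := Submodule.span ℂ (Set.range (fun p : I × Λ => ζ p.1 p.2))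
  have : FiniteDimensional ℂ H₀ := FiniteDimensional.span_of_finite ℂ (Set.finite_range _)
  let c := stdOrthonormalBasis ℂ H₀
  let z : I → Λ → H₀ := fun i l => ⟨ζ i l, Submodule.subset_span ⟨(i, l), rfl⟩⟩
  let ζ' : I → EuclideanSpace ℂ (Mult Λ (Fin (Module.finrank ℂ H₀))) :=
    fun i => WithLp.toLp 2 (fun p => ⟪c p.2, z i p.1⟫_ℂ)
  have key : ∀ (g : G) (γ : I → I → ℂ),
      ∑ k, ‖(permRep G _ D).U g (ζ' k) - ∑ j, γ j k • ζ' j‖ ^ 2
        = ∑ l, ∑ k, ‖ζ k (g⁻¹ • l) - ∑ j, γ j k • ζ j l‖ ^ 2 := by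
    intro g γ
    rw [Finset.sum_comm]
    refine Finset.sum_congr rfl (fun k _ => ?_)
    rw [PiLp.norm_sq_eq_of_L2]
    refine (Fintype.sum_prod_type _).trans (Finset.sum_congr rfl (fun l _ => ?_))
    have e1 : ‖ζ k (g⁻¹ • l) - ∑ j, γ j k • ζ j l‖ = ‖z k (g⁻¹ • l) - ∑ j, γ j k • z j l‖ := by
      rw [← Submodule.norm_coe]
      simp [z]
    rw [e1, ← c.sum_sq_norm_inner_right]
    refine Finset.sum_congr rfl (fun β _ => ?_)
    have e2 : ∀ p : Mult Λ (Fin (Module.finrank ℂ H₀)),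
        ((permRep G _ D).U g (ζ' k) - ∑ j, γ j k • ζ' j) p
          = ⟪c p.2, z k (g⁻¹ • p.1) - ∑ j, γ j k • z j p.1⟫_ℂ := by
      intro p
      simp only [PiLp.sub_apply, WithLp.ofLp_sum, Finset.sum_apply, PiLp.smul_apply,
        inner_sub_right, inner_sum, inner_smul_right, smul_eq_mul]
      rfl
    exact congrArg (fun t => ‖t‖ ^ 2) (e2 (l, β))
  refine pack (D := D) S (fun p : Mult Λ (Fin (Module.finrank ℂ H₀)) => lev p.1)
    (fun g p => hlev g p.1) κ hκ (fun j a p hp => Prod.ext (htriv j a p.1 hp) rfl) ζ' ?_ ?_ ?_ hM hM0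
  · intro i p
    change ∑ a, ⟪c p.2, z i (κ (lev p.1) a • p.1)⟫_ℂ = 0
    have : ∑ a, z i (κ (lev p.1) a • p.1) = 0 := by
      apply Subtype.ext
      simpa [z] using hz i p.1
    rw [← inner_sum, this, inner_zero_right]
  · intro j
    rw [← hn j]
    refine (Fintype.sum_prod_type _).trans (Finset.sum_congr rfl (fun l _ => ?_))
    split_ifs with h
    · rw [Finset.sum_comm]
      refine Finset.sum_congr rfl (fun i _ => ?_)
      exact c.sum_sq_norm_inner_right (z i l)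
    · simp
  · intro i a
    obtain ⟨γ, h1, h2⟩ := herr i a
    refine ⟨γ, ?_, ?_⟩
    · rw [key, inv_inv]; exact h1
    · rw [key _ (fun j k => conj (γ k j))]; exact h2

end Pack

end Vale.Agent.P083
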