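import Mathlib

/-! A norming vector state for an element of a unital C*-algebra. -/

open scoped InnerProductSpace ComplexOrder

namespace Vale.Agent.P083

universe u

lemma exists_state {B : Type u} [CStarAlgebra B] [Nontrivial B] [PartialOrder B]
    [StarOrderedRing B] (h : B) (hh : 0 ≤ h) :
    ∃ f : B →ₚ[ℂ] ℂ, f 1 = 1 ∧ (f h).re = ‖h‖ := by
  obtain ⟨g, hg, hg1⟩ := exists_dual_vector'' ℂ (1 + h)
  have hgb : ∀ x, ‖g x‖ ≤ ‖x‖ := fun x => (g.le_opNorm x).trans
    (mul_le_of_le_one_left (norm_nonneg _) hg)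
  have h1 : 0 ≤ 1 + h := add_nonneg zero_le_one hh
  have h2 : 1 ≤ ‖1 + h‖ := by
    have := CStarAlgebra.norm_le_norm_of_nonneg_of_le (zero_le_one' B) (le_add_of_nonneg_right hh)
    rwa [norm_one] at this
  have h3 : ‖h‖ ≤ ‖1 + h‖ - 1 := by
    rw [CStarAlgebra.norm_le_iff_le_algebraMap h (by linarith) hh, map_sub, map_one,
      le_sub_iff_add_le']
    exact IsSelfAdjoint.le_algebraMap_norm_self (.of_nonneg h1)
  have h4 : (g 1).re + (g h).re = ‖1 + h‖ := by
    rw [← Complex.add_re, ← map_add, hg1]; simp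
  have h5 : (g 1).re ≤ 1 := (Complex.re_le_norm _).trans ((hgb 1).trans_eq norm_one)
  have h6 : (g h).re ≤ ‖h‖ := (Complex.re_le_norm _).trans (hgb h)
  have h7 : g 1 = 1 := by
    have e1 : (g 1).re = 1 := by linarith
    have e2 : ‖g 1‖ ^ 2 ≤ 1 := by
      have := (hgb 1).trans_eq norm_one
      nlinarith [norm_nonneg (g 1)]
    rw [Complex.sq_norm, Complex.normSq_apply, e1] at e2
    apply Complex.ext e1
    simp only [Complex.one_im]
    nlinarith
  have hpos : ∀ x : B, 0 ≤ x → 0 ≤ g x := by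
    intro x hx
    have hsa : IsSelfAdjoint x := .of_nonneg hx
    have him : (g x).im = 0 := by
      have key : ∀ t : ℝ, 2 * t * (g x).im ≤ ‖x‖ ^ 2 := by
        intro t
        have e1 : star (x + (t * Complex.I : ℂ) • (1 : B)) * (x + (t * Complex.I : ℂ) • 1)
            = x * x + ((t ^ 2 : ℝ) : ℂ) • 1 := by
          rw [star_add, hsa.star_eq, star_smul, star_one]
          simp only [add_mul, mul_add, smul_mul_assoc, mul_smul_comm, one_mul, mul_one, smul_add, smul_smul,
            star_mul', Complex.star_def, Complex.conj_ofReal, Complex.conj_I]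
          have : (t * Complex.I * (t * -Complex.I) : ℂ) = ((t ^ 2 : ℝ) : ℂ) := by
            push_cast
            linear_combination (-(t : ℂ) ^ 2) * Complex.I_mul_I
          rw [this]
          module
        have e2 : ‖x + (t * Complex.I : ℂ) • (1 : B)‖ ^ 2 ≤ ‖x‖ ^ 2 + t ^ 2 := by
          rw [sq, ← CStarRing.norm_star_mul_self, e1]
          refine (norm_add_le _ _).trans (add_le_add ((norm_mul_le _ _).trans_eq (sq _).symm) ?_)
          rw [norm_smul, norm_one, mul_one, Complex.norm_real, Real.norm_eq_abs,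
            abs_of_nonneg (sq_nonneg t)]
        have e3 : (g (x + (t * Complex.I : ℂ) • (1 : B))).im = (g x).im + t := by
          rw [map_add, map_smul, h7]; simp
        have e4 := (Complex.abs_im_le_norm _).trans (hgb (x + (t * Complex.I : ℂ) • (1 : B)))
        have e5 := pow_le_pow_left₀ (abs_nonneg _) e4 2
        rw [sq_abs, e3] at e5
        nlinarith [sq_nonneg (g x).im]
      by_contra hne
      have := key ((‖x‖ ^ 2 + 1) / (2 * (g x).im))
      rw [show 2 * ((‖x‖ ^ 2 + 1) / (2 * (g x).im)) * (g x).im = ‖x‖ ^ 2 + 1 by field_simp] at this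
      linarith
    have hre : 0 ≤ (g x).re := by
      have e1 : ‖algebraMap ℝ B ‖x‖ - x‖ ≤ ‖x‖ := by
        rw [CStarAlgebra.norm_le_iff_le_algebraMap _ (norm_nonneg _)
          (sub_nonneg.2 hsa.le_algebraMap_norm_self)]
        exact sub_le_self _ hx
      have e2 : (g (algebraMap ℝ B ‖x‖ - x)).re = ‖x‖ - (g x).re := by
        rw [map_sub, Algebra.algebraMap_eq_smul_one, ← Complex.coe_smul, map_smul, h7]
        simp
      have := (Complex.re_le_norm _).trans ((hgb _).trans e1)
      linarith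
    exact Complex.nonneg_iff.2 ⟨hre, him.symm⟩
  exact ⟨PositiveLinearMap.mk₀ g.toLinearMap hpos, h7, by
    change (g h).re = _
    linarith⟩

theorem exists_rep {B : Type u} [CStarAlgebra B] [Nontrivial B] (y : B) :
    ∃ (H : Type u) (_ : NormedAddCommGroup H) (_ : InnerProductSpace ℂ H) (_ : CompleteSpace H)
      (ρ : B →⋆ₐ[ℂ] (H →L[ℂ] H)) (Ω : H), ‖Ω‖ = 1 ∧ ‖ρ y Ω‖ = ‖y‖ := by
  let _ := CStarAlgebra.spectralOrder B
  have := CStarAlgebra.spectralOrderedRing B
  obtain ⟨f, h1, h2⟩ := exists_state (star y * y) (star_mul_self_nonneg y)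
  refine ⟨f.GNS, inferInstance, inferInstance, inferInstance, f.gnsStarAlgHom,
    ((f.toPreGNS 1 : f.PreGNS) : f.GNS), ?_, ?_⟩
  · rw [UniformSpace.Completion.norm_coe, f.preGNS_norm_def]
    simp [h1]
  · have : f.gnsStarAlgHom y ((f.toPreGNS 1 : f.PreGNS) : f.GNS)
        = ((f.toPreGNS y : f.PreGNS) : f.GNS) := by
      change f.gnsNonUnitalStarAlgHom y _ = _
      rw [f.gnsNonUnitalStarAlgHom_apply_coe]
      simp
    rw [this, UniformSpace.Completion.norm_coe, f.preGNS_norm_def]
    simp only [PositiveLinearMap.ofPreGNS_toPreGNS, h2]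
    rw [CStarRing.norm_star_mul_self, Real.sqrt_mul_self (norm_nonneg _)]

end Vale.Agent.P083
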