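import Vale.Agent.P083.Main
import Vale.Agent.P083.State

/-! From an embedding into the ultrapower to approximate solutions in the base algebra. -/

open Filter Topology

namespace Vale.Agent.P083

universe u

variable {B : Type u} [CStarAlgebra B] [Nontrivial B] {ω : Ultrafilter ℕ}

/-- The quotient map onto the ultrapower. -/
noncomputable def qmk (B : Type u) [CStarAlgebra B] [Nontrivial B] (ω : Ultrafilter ℕ) :
    BddSeq B →ₐ[ℂ] Ultrapower B ω := Ideal.Quotient.mkₐ ℂ (nullIdeal B ω)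

lemma qmk_star (x : BddSeq B) : qmk B ω (star x) = star (qmk B ω x) := rfl

lemma qmk_surj : Function.Surjective (qmk B ω) := Ideal.Quotient.mkₐ_surjective ℂ _

lemma qmk_eq_zero (x : BddSeq B) :
    qmk B ω x = 0 ↔ Tendsto (fun n => ‖x n‖) (ω : Filter ℕ) (𝓝 0) :=
  Ideal.Quotient.eq_zero_iff_mem

lemma small_of_zero {x : BddSeq B} (h : qmk B ω x = 0) {δ : ℝ} (hδ : 0 < δ) :
    ∀ᶠ k in (ω : Filter ℕ), ‖x k‖ ≤ δ :=
  ((qmk_eq_zero x).1 h).eventually (ge_mem_nhds hδ)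

lemma large_of_ne {x : BddSeq B} (h : qmk B ω x ≠ 0) :
    ∃ c : ℝ, 0 < c ∧ ∀ᶠ k in (ω : Filter ℕ), c ≤ ‖x k‖ := by
  by_contra hc
  push Not at hc
  apply h
  rw [qmk_eq_zero, tendsto_order]
  refine ⟨fun a ha => Eventually.of_forall (fun k => ha.trans_le (norm_nonneg _)), fun a ha => ?_⟩
  have := hc a ha
  simpa using this

lemma bdd_sum_apply {ι : Type*} (s : Finset ι) (f : ι → BddSeq B) (k : ℕ) :
    (∑ i ∈ s, f i) k = ∑ i ∈ s, f i k := by
  rw [lp.coeFn_sum, Finset.sum_apply]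

theorem no_embed {A : Type*} [CStarAlgebra A] (U : Gr → A) (h1 : U 1 = 1)
    (hs : ∀ g, star (U g) = U g⁻¹) (hm : ∀ g ∈ Dom, ∀ h ∈ Dom, U g * U h = U (g * h))
    (a : Alph → A) (ha : ∀ x, star (a x) * a x = 1)
    (hrel : ∀ i c x, U (gen i c) * a x = a (outL i c x) * U (resG i c x))
    (r : L 1 → A) (hr : ∀ i c y, U (gen i c) * r y = r (gen i c • y))
    (hr0 : (37 : ℂ) • r ⟨0, 0, 0⟩ - ∑ c, r (tr1 0 c • (⟨0, 0, 0⟩ : L 1)) ≠ 0)
    {s₁ s₂ : B} (hc : IsCuntzPair s₁ s₂) (θ : A →⋆ₐ[ℂ] Ultrapower B ω) :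
    ¬ Function.Injective θ := by
  classical
  intro hθ
  choose lf hlf using fun z : A => qmk_surj (B := B) (ω := ω) (θ z)
  let u : Gr → BddSeq B := fun g =>
    if g = 1 then 1 else (2 : ℂ)⁻¹ • (lf (U g) + star (lf (U g⁻¹)))
  have hu : ∀ g, qmk B ω (u g) = θ (U g) := by
    intro g
    simp only [u]
    split_ifs with h
    · rw [h, h1, map_one, map_one]
    · rw [map_smul, map_add, qmk_star, hlf, hlf, ← map_star, hs, inv_inv, ← two_smul ℂ, smul_smul]
      norm_num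
  have hu1 : u 1 = 1 := by simp [u]
  have hus : ∀ g, star (u g) = u g⁻¹ := by
    intro g
    simp only [u, inv_eq_one]
    split_ifs with h
    · exact star_one _
    · rw [star_smul, star_add, star_star, inv_inv, add_comm]
      simp
  let b : L 1 → BddSeq B := fun y => (37 : ℂ) • lf (r y) - ∑ c, lf (r (tr1 0 c • y))
  have hb : ∀ y, qmk B ω (b y) = θ ((37 : ℂ) • r y - ∑ c, r (tr1 0 c • y)) := by
    intro y
    simp only [b, map_sub, map_smul, map_sum, hlf]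
  have hbz : ∀ y, ∑ c, b (tr1 0 c • y) = 0 := by
    intro y
    simp only [b, Finset.sum_sub_distrib, ← Finset.smul_sum, tr1_add]
    have : ∀ c : F, ∑ c', lf (r (tr1 0 (c + c') • y)) = ∑ c', lf (r (tr1 0 c' • y)) := fun c =>
      Fintype.sum_equiv (Equiv.addLeft c) _ _ (fun _ => rfl)
    simp only [this, Finset.sum_const, Finset.card_univ, card_F]
    rw [← Nat.cast_smul_eq_nsmul ℂ]
    simp
  obtain ⟨c₀, hc₀, e0⟩ := large_of_ne (x := b ⟨0, 0, 0⟩) (ω := ω) (by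
    rw [hb]
    intro h
    exact hr0 (hθ (h.trans (map_zero θ).symm)))
  set N : ℝ := ((Fintype.card (L 1) : ℕ) : ℝ) with hN
  have hN0 : 0 ≤ N := by positivity
  have hε : (0 : ℝ) < 1 / 10 ^ 10 := by positivity
  have e1 : ∀ᶠ k in (ω : Filter ℕ), ∀ p q : Fin 6 × Heis,
      ‖(u (hom6 p.1 p.2) * u (hom6 q.1 q.2) - u (hom6 p.1 p.2 * hom6 q.1 q.2)) k‖
        ≤ 1 / 10 ^ 10 := by
    refine eventually_all.2 (fun p => eventually_all.2 (fun q => small_of_zero ?_ hε))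
    rw [map_sub, map_mul, hu, hu, hu, ← map_mul, hm _ ⟨p, rfl⟩ _ ⟨q, rfl⟩, sub_self]
  have e2 : ∀ᶠ k in (ω : Filter ℕ), ∀ x, ‖(star (lf (a x)) * lf (a x) - 1) k‖ ≤ 1 / 10 ^ 10 := by
    refine eventually_all.2 (fun x => small_of_zero ?_ hε)
    rw [map_sub, map_mul, qmk_star, hlf, ← map_star, ← map_mul, ha, map_one, map_one, sub_self]
  have e3 : ∀ᶠ k in (ω : Filter ℕ), ∀ i c x,
      ‖(u (gen i c) * lf (a x) - lf (a (outL i c x)) * u (resG i c x)) k‖ ≤ 1 / 10 ^ 10 := by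
    refine eventually_all.2 (fun i => eventually_all.2 (fun c => eventually_all.2
      (fun x => small_of_zero ?_ hε)))
    rw [map_sub, map_mul, map_mul, hu, hu, hlf, hlf, ← map_mul, ← map_mul, hrel, sub_self]
  have e4 : ∀ᶠ k in (ω : Filter ℕ), ∀ i c y,
      ‖(u (gen i c) * b y - b (gen i c • y)) k‖ ≤ c₀ / (4 * (N + 1)) := by
    refine eventually_all.2 (fun i => eventually_all.2 (fun c => eventually_all.2
      (fun y => small_of_zero ?_ (by positivity))))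
    rw [map_sub, map_mul, hu, hb, hb, ← map_mul, mul_sub, mul_smul_comm, Finset.mul_sum]
    simp only [hr, gen_tr1, sub_self]
  obtain ⟨k, f0, f1, f2, f3, f4⟩ := (e0.and (e1.and (e2.and (e3.and e4)))).exists
  obtain ⟨H, _, _, _, ρ, Ω, hΩ, hΩ'⟩ := exists_rep (b ⟨0, 0, 0⟩ k)
  let η₀ : PiLp 2 (fun _ : L 1 => H) := WithLp.toLp 2 (fun y => ρ (b y k) Ω)
  have hη : c₀ ≤ ‖η₀‖ := f0.trans (hΩ'.symm.trans_le (PiLp.norm_apply_le η₀ ⟨0, 0, 0⟩))
  refine approx_false hc ρ (fun g => u g k) (by rw [hu1]; rfl) (fun g => by rw [← hus]; rfl) ?_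
    (fun x => lf (a x) k) f2 f3 η₀ (fun y => ?_) (hc₀.trans_le hη) (fun i c => ?_)
  · rintro _ ⟨p, rfl⟩ _ ⟨q, rfl⟩
    exact f1 p q
  · change ∑ c, ρ (b (tr1 0 c • y) k) Ω = 0
    rw [← sum_apply, ← map_sum, ← bdd_sum_apply, hbz]
    simp
  · have t : ∀ y, ‖ρ (u (gen i c) k) (η₀ y) - η₀ (gen i c • y)‖ ^ 2
        ≤ (c₀ / (4 * (N + 1))) ^ 2 := by
      intro y
      refine pow_le_pow_left₀ (norm_nonneg _) ?_ 2
      have e : ρ (u (gen i c) k) (η₀ y) - η₀ (gen i c • y)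
          = ρ ((u (gen i c) * b y - b (gen i c • y)) k) Ω := by
        change _ = ρ (u (gen i c) k * b y k - b (gen i c • y) k) Ω
        rw [map_sub, map_mul]
        rfl
      rw [e]
      refine (ContinuousLinearMap.le_opNorm _ _).trans ?_
      rw [hΩ, mul_one]
      exact (NonUnitalStarAlgHom.norm_apply_le ρ _).trans (f4 i c y)
    refine (Finset.sum_le_sum (fun y _ => t y)).trans ?_
    rw [Finset.sum_const, Finset.card_univ, nsmul_eq_mul, ← hN, div_pow, ← mul_div_assoc,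
      div_le_div_iff₀ (by positivity) (by positivity)]
    have := pow_le_pow_left₀ hc₀.le hη 2
    nlinarith [mul_nonneg hN0 (sq_nonneg ‖η₀‖), mul_nonneg (sq_nonneg N) (sq_nonneg ‖η₀‖),
      mul_le_mul_of_nonneg_left this hN0]

end Vale.Agent.P083
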